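import Mathlib

/-!
A verified elimination procedure modulo a prime: if the residues of a list of points pass the
check, no pair of nonzero complex functionals can share out the points between them.
-/

namespace Vale.Agent.P372

def ldot : List ℕ → List ℕ → ℕ
  | a :: as, b :: bs => a * b + ldot as bs
  | _, _ => 0

def lcomb (P x y : ℕ) : List ℕ → List ℕ → List ℕ
  | a :: as, b :: bs => (x * a + y * b) % P :: lcomb P x y as bs
  | _, _ => []

def lelim (P x : ℕ) (v b : List ℕ) : List (List ℕ) → List (List ℕ)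
  | [] => []
  | c :: L => lcomb P x (P - ldot c v % P) c b :: lelim P x v b L

def lstep (P : ℕ) (v : List ℕ) : List (List ℕ) → List (List ℕ) → List (List ℕ)
  | pre, [] => pre
  | pre, b :: L =>
    match ldot b v % P with
    | 0 => lstep P v (b :: pre) L
    | x + 1 => lelim P (x + 1) v b (pre ++ L)

def lcheck (P : ℕ) : List (List ℕ × List ℕ) → List (List ℕ) → List (List ℕ) → Bool
  | [], F, G => F.isEmpty || G.isEmpty
  | uv :: pts, F, G => F.isEmpty || (G.isEmpty ||
      (lcheck P pts (lstep P uv.1 [] F) G && lcheck P pts F (lstep P uv.2 [] G)))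

def lid (n : ℕ) : List (List ℕ) :=
  (List.range n).map fun i => (List.range n).map fun j => if i = j then 1 else 0

theorem ldot_eq (a v : List ℕ) :
    ldot a v = ∑ i ∈ Finset.range v.length, a.getD i 0 * v.getD i 0 := by
  induction v generalizing a with
  | nil => cases a <;> simp [ldot]
  | cons y v ih =>
    cases a with
    | nil => simp [ldot]
    | cons x a =>
      rw [ldot, ih a, List.length_cons, Finset.sum_range_succ']
      simp [add_comm]

theorem lcomb_length (P x y : ℕ) (a b : List ℕ) (h : a.length = b.length) :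
    (lcomb P x y a b).length = a.length := by
  induction a generalizing b with
  | nil => cases b <;> simp [lcomb]
  | cons s a ih =>
    cases b with
    | nil => simp at h
    | cons t b => simp [lcomb, ih b (by simpa using h)]

theorem lcomb_getD (P x y : ℕ) (a b : List ℕ) (h : a.length = b.length) (i : ℕ) :
    (lcomb P x y a b).getD i 0 = (x * a.getD i 0 + y * b.getD i 0) % P := by
  induction a generalizing b i with
  | nil => cases b with
    | nil => simp [lcomb]
    | cons t b => simp at h
  | cons s a ih =>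
    cases b with
    | nil => simp at h
    | cons t b =>
      cases i with
      | zero => simp [lcomb]
      | succ i => simpa [lcomb] using ih b (by simpa using h) i

section

variable {O k : Type} [CommRing O] [Field k] (φ : O →+* k) (ι : O →+* ℂ)

/-- The list `l` is the residue of the vector `b`. -/
def Res {n : ℕ} (l : List ℕ) (b : Fin n → O) : Prop :=
  l.length = n ∧ ∀ i : Fin n, φ (b i) = (l.getD i 0 : ℕ)

/-- `f` lies in the span of lifts of the lists in `L`. -/
def Cov {n : ℕ} (L : List (List ℕ)) (f : Fin n → ℂ) : Prop :=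
  ∃ B : List (Fin n → O), List.Forall₂ (Res φ) L B ∧
    f ∈ Submodule.span ℂ {g : Fin n → ℂ | ∃ b ∈ B, g = fun i => ι (b i)}

variable {φ ι}

theorem res_dot {n : ℕ} {a v : List ℕ} {b w : Fin n → O} (ha : Res φ a b) (hv : Res φ v w) :
    φ (∑ i, b i * w i) = (ldot a v : ℕ) := by
  rw [ldot_eq, hv.1, ← Fin.sum_univ_eq_sum_range (fun i => a.getD i 0 * v.getD i 0)]
  simp only [map_sum, map_mul, ha.2, hv.2]
  push_cast
  rfl

theorem res_elim (P : ℕ) [CharP k P] (hP : 0 < P) {n : ℕ} {v b : List ℕ} {w b0 : Fin n → O}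
    (hv : Res φ v w) (hb : Res φ b b0) {L : List (List ℕ)} {B : List (Fin n → O)}
    (h : List.Forall₂ (Res φ) L B) :
    List.Forall₂ (Res φ) (lelim P (ldot b v % P) v b L)
      (B.map fun c => fun i => (∑ j, b0 j * w j) * c i - (∑ j, c j * w j) * b0 i) := by
  induction h with
  | nil => simp [lelim]
  | @cons l c L B hl _ ih =>
    rw [lelim, List.map_cons]
    refine List.Forall₂.cons ⟨?_, fun i => ?_⟩ ih
    · rw [lcomb_length _ _ _ _ _ (hl.1.trans hb.1.symm), hl.1]
    · rw [lcomb_getD _ _ _ _ _ (hl.1.trans hb.1.symm), ← CharP.cast_eq_mod k P, map_sub, map_mul,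
        map_mul, res_dot hb hv, res_dot hl hv, hl.2, hb.2]
      push_cast [Nat.cast_sub (Nat.mod_lt _ hP).le]
      rw [← CharP.cast_eq_mod k P, ← CharP.cast_eq_mod k P, CharP.cast_eq_zero k P]
      ring

theorem span_elim {n : ℕ} (S : Set (Fin n → ℂ)) (g0 w f : Fin n → ℂ)
    (h0 : ∑ j, g0 j * w j ≠ 0) (hf : f ∈ Submodule.span ℂ (insert g0 S))
    (hfw : ∑ j, f j * w j = 0) :
    f ∈ Submodule.span ℂ
      ((fun g => fun i => (∑ j, g0 j * w j) * g i - (∑ j, g j * w j) * g0 i) '' S) := by
  have key : ∀ f ∈ Submodule.span ℂ (insert g0 S),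
      (fun i => (∑ j, g0 j * w j) * f i - (∑ j, f j * w j) * g0 i) ∈ Submodule.span ℂ
      ((fun g => fun i => (∑ j, g0 j * w j) * g i - (∑ j, g j * w j) * g0 i) '' S) := by
    intro f hf
    induction hf using Submodule.span_induction with
    | mem x hx =>
      rcases hx with rfl | hx
      · convert Submodule.zero_mem _
        simp
      · exact Submodule.subset_span ⟨x, hx, rfl⟩
    | zero =>
      convert Submodule.zero_mem _
      simp
    | add x y _ _ hx hy =>
      convert Submodule.add_mem _ hx hy using 1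
      ext i
      simp only [Pi.add_apply, add_mul, Finset.sum_add_distrib]
      ring
    | smul c x _ hx =>
      convert Submodule.smul_mem _ c hx using 1
      ext i
      simp only [Pi.smul_apply, smul_eq_mul, mul_assoc, ← Finset.mul_sum]
      ring
  have h1 := Submodule.smul_mem _ (∑ j, g0 j * w j)⁻¹ (key f hf)
  convert h1 using 1
  ext i
  simp only [Pi.smul_apply, smul_eq_mul, hfw]
  field_simp
  ring

theorem cov_step (hι : Function.Injective ι) (P : ℕ) [CharP k P] (hP : 0 < P) {n : ℕ}
    {v : List ℕ} {w : Fin n → O} (hv : Res φ v w) {f : Fin n → ℂ}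
    (hfw : ∑ j, f j * ι (w j) = 0) (L : List (List ℕ)) :
    ∀ (pre : List (List ℕ)) (Bp BL : List (Fin n → O)), List.Forall₂ (Res φ) pre Bp →
      List.Forall₂ (Res φ) L BL →
      f ∈ Submodule.span ℂ {g : Fin n → ℂ | ∃ b, (b ∈ Bp ∨ b ∈ BL) ∧ g = fun i => ι (b i)} →
      Cov φ ι (lstep P v pre L) f := by
  induction L with
  | nil =>
    intro pre Bp BL hp hL hf
    cases hL
    exact ⟨Bp, hp, by simpa using hf⟩
  | cons b L ih =>
    intro pre Bp BL hp hL hf
    cases hL with
    | @cons _ b0 _ BL hb hL =>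
    rw [lstep]
    split
    · refine ih _ (b0 :: Bp) BL (List.Forall₂.cons hb hp) hL ?_
      convert hf using 3
      ext g
      simp only [List.mem_cons]
      grind
    · rename_i x hx
      rw [← Nat.succ_eq_add_one, ← hx]
      refine ⟨_, res_elim P hP hv hb (List.rel_append hp hL), ?_⟩
      have h0 : ∑ j, ι (b0 j) * ι (w j) ≠ 0 := by
        intro h
        have h1 : ι (∑ j, b0 j * w j) = ι 0 := by simpa using h
        have h2 := res_dot hb hv
        rw [hι h1, map_zero, CharP.cast_eq_mod k P, hx, eq_comm, CharP.cast_eq_zero_iff k P] at h2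
        have h3 := Nat.le_of_dvd (Nat.succ_pos _) h2
        have h4 := Nat.mod_lt (ldot b v) hP
        omega
      have h5 := span_elim {g : Fin n → ℂ | ∃ b ∈ Bp ++ BL, g = fun i => ι (b i)}
        (fun i => ι (b0 i)) (fun i => ι (w i)) f h0 (by
          refine Submodule.span_mono ?_ hf
          rintro g ⟨c, hc, rfl⟩
          simp only [List.mem_cons] at hc
          rcases hc with hc | rfl | hc
          · exact Or.inr ⟨c, by simp [hc], rfl⟩
          · exact Or.inl rfl
          · exact Or.inr ⟨c, by simp [hc], rfl⟩) hfw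
      refine Submodule.span_mono ?_ h5
      rintro g ⟨_, ⟨c, hc, rfl⟩, rfl⟩
      exact ⟨_, List.mem_map.2 ⟨c, hc, rfl⟩, by simp⟩

theorem cov_nil {n : ℕ} {f : Fin n → ℂ} (h : Cov φ ι [] f) : f = 0 := by
  obtain ⟨B, hB, hf⟩ := h
  cases hB
  simpa using hf

theorem cov_id {n : ℕ} (f : Fin n → ℂ) : Cov φ ι (lid n) f := by
  refine ⟨(List.range n).map fun i => fun j => if i = j.1 then 1 else 0, ?_, ?_⟩
  · rw [lid, List.forall₂_map_left_iff, List.forall₂_map_right_iff, List.forall₂_same]
    intro i _
    refine ⟨by simp, fun j => ?_⟩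
    rw [List.getD_eq_getElem _ _ (by simp)]
    by_cases h : i = j.1 <;> simp [h]
  · have : f = ∑ i : Fin n, f i • (fun j : Fin n => ι (if i.1 = j.1 then 1 else 0)) := by
      ext j
      simp [Finset.sum_apply, apply_ite ι, Fin.val_inj]
    rw [this]
    refine Submodule.sum_mem _ fun i _ => Submodule.smul_mem _ _ (Submodule.subset_span ?_)
    exact ⟨_, List.mem_map.2 ⟨i.1, by simp, rfl⟩, rfl⟩

theorem check_sound (hι : Function.Injective ι) (P : ℕ) [CharP k P] (hP : 0 < P) {n m : ℕ}
    {f : Fin n → ℂ} {g : Fin m → ℂ} (pts : List (List ℕ × List ℕ))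
    (hpts : ∀ uv ∈ pts, ∃ (w : Fin n → O) (z : Fin m → O), Res φ uv.1 w ∧ Res φ uv.2 z ∧
      (∑ j, f j * ι (w j) = 0 ∨ ∑ j, g j * ι (z j) = 0)) :
    ∀ F G, lcheck P pts F G = true → Cov φ ι F f → Cov φ ι G g → f = 0 ∨ g = 0 := by
  induction pts with
  | nil =>
    intro F G h hF hG
    simp only [lcheck, Bool.or_eq_true, List.isEmpty_iff] at h
    rcases h with rfl | rfl
    · exact Or.inl (cov_nil hF)
    · exact Or.inr (cov_nil hG)
  | cons uv pts ih =>
    intro F G h hF hG
    simp only [lcheck, Bool.or_eq_true, List.isEmpty_iff, Bool.and_eq_true] at h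
    rcases h with rfl | rfl | ⟨h1, h2⟩
    · exact Or.inl (cov_nil hF)
    · exact Or.inr (cov_nil hG)
    · obtain ⟨w, z, hw, hz, h | h⟩ := hpts uv (by simp)
      · obtain ⟨B, hB, hf⟩ := hF
        exact ih (fun uv h => hpts uv (by simp [h])) _ _ h1
          (cov_step hι P hP hw h F [] [] B List.Forall₂.nil hB (by simpa using hf)) hG
      · obtain ⟨B, hB, hg⟩ := hG
        exact ih (fun uv h => hpts uv (by simp [h])) _ _ h2 hF
          (cov_step hι P hP hz h G [] [] B List.Forall₂.nil hB (by simpa using hg))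

end

/-- A residue field of characteristic `P` of the ring of algebraic integers. -/
theorem exists_residue (P : ℕ) (hP : P.Prime) :
    ∃ (k : Type) (_ : Field k) (_ : CharP k P), Nonempty (integralClosure ℤ ℂ →+* k) := by
  have : Fact P.Prime := ⟨hP⟩
  have : (Ideal.span {(P : ℤ)}).IsMaximal :=
    Ideal.IsPrime.isMaximal ((Ideal.span_singleton_prime (by exact_mod_cast hP.ne_zero)).2
      (Nat.prime_iff_prime_int.1 hP)) (by simpa using hP.ne_zero)
  obtain ⟨Q, hQ, hc⟩ := Ideal.exists_ideal_over_maximal_of_isIntegral (S := integralClosure ℤ ℂ)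
    (Ideal.span {(P : ℤ)}) (by
      intro x hx
      have : x = 0 := by
        rw [RingHom.mem_ker] at hx
        have h2 := congrArg Subtype.val hx
        simpa using h2
      simp [this])
  let := Ideal.Quotient.field Q
  refine ⟨_ ⧸ Q, inferInstance, ?_, ⟨Ideal.Quotient.mk Q⟩⟩
  rw [CharP.charP_iff_prime_eq_zero hP]
  have : (P : ℤ) ∈ Q.comap (algebraMap ℤ (integralClosure ℤ ℂ)) := by
    rw [hc]; exact Ideal.mem_span_singleton_self _
  rw [Ideal.mem_comap] at this
  have h2 := Ideal.Quotient.eq_zero_iff_mem.2 this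
  simpa using h2

open Polynomial in
theorem root_lift {k : Type} [Field k] (φ : integralClosure ℤ ℂ →+* k) (m : ℤ[X])
    (hm : m.Monic) (r : ℤ) (hr : ((m.eval r : ℤ) : k) = 0) :
    ∃ x : integralClosure ℤ ℂ, aeval (x : ℂ) m = 0 ∧ φ x = r := by
  have hM : (m.map (algebraMap ℤ ℂ)).Monic := hm.map _
  have hs := (IsAlgClosed.splits (m.map (algebraMap ℤ ℂ))).eq_prod_roots_of_monic hM
  set s := (m.map (algebraMap ℤ ℂ)).roots with hsdef
  have hroot : ∀ z ∈ s, aeval z m = 0 := by
    intro z hz
    have := (mem_roots hM.ne_zero).1 hz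
    rwa [IsRoot.def, eval_map_algebraMap] at this
  have hint : ∀ z ∈ s, z ∈ integralClosure ℤ ℂ := fun z hz => ⟨m, hm, hroot z hz⟩
  lift s to Multiset (integralClosure ℤ ℂ) using hint with t ht
  have h1 : ((m.eval r : ℤ) : integralClosure ℤ ℂ) = (t.map fun z => (r : integralClosure ℤ ℂ) - z).prod := by
    apply Subtype.val_injective
    have h2 := congrArg (eval (r : ℂ)) hs
    rw [eval_multiset_prod] at h2
    have h3 : eval (r : ℂ) (m.map (algebraMap ℤ ℂ)) = ((m.eval r : ℤ) : ℂ) := by
      simp
    rw [h3] at h2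
    have h4 := map_multiset_prod (integralClosure ℤ ℂ).val (t.map fun z => (r : integralClosure ℤ ℂ) - z)
    simp only [Multiset.map_map] at h2 h4
    simp only [Subalgebra.coe_val] at h4
    rw [h4]
    simpa using h2
  have h5 := congrArg φ h1
  rw [map_intCast, hr, map_multiset_prod, eq_comm, Multiset.prod_eq_zero_iff] at h5
  simp only [Multiset.map_map, Multiset.mem_map, Function.comp] at h5
  obtain ⟨x, hx, hx0⟩ := h5
  refine ⟨x, hroot x (Multiset.mem_map.2 ⟨x, hx, rfl⟩), ?_⟩
  rw [map_sub, map_intCast, sub_eq_zero] at hx0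
  exact hx0.symm

end Vale.Agent.P372
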