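import Vale.Agent.P372.Check

/-!
The explicit data: a rank six Gram tensor on `3 × 5` invariant under partial transposition,
and the fifteen product vectors in its kernel.
-/

namespace Vale.Agent.P372

open Polynomial

def Vm : Fin 6 → Fin 3 → Fin 5 → ℤ :=
  ![![![20081, -9331, 70721, -211267, -2353120], ![-9331, 70721, -211267, 1223537, 16234568], ![-211267, 1223537, -6023731, 34305761, 580707176]],
    ![![0, 835, -2244, 14155, 190447], ![835, -2244, 14155, -68616, -1051599], ![14155, -68616, 396295, -2240484, -40728231]],
    ![![0, 0, 5699, -25965, -485502], ![0, 5699, -25965, 176561, 3440534], ![-25965, 176561, -1015185, 6486089, 148623446]],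
    ![![0, 0, 0, 1663, 65261], ![0, 0, 1663, -11478, -340005], ![1663, -11478, 99695, -639090, -15353469]],
    ![![0, 0, 0, 0, 238], ![0, 0, 0, -11, -847], ![0, -11, 271, -1660, -75903]],
    ![![0, 0, 0, 0, 0], ![0, 0, 0, 1, 77], ![0, 1, -3, 86, 4953]]]

def dw : Fin 6 → ℕ := ![7913659895, 15130766080248, 2422088296992, 156882285574560, 4507926783980256000, 4997788161172777152000]

theorem flat_int : ∀ a c a' c', ∑ i, (dw i : ℤ) * (Vm i a c * Vm i a' c') =
    ∑ i, (dw i : ℤ) * (Vm i a c' * Vm i a' c) := by decide +kernel

theorem dw_pos : ∀ i, 0 < dw i := by decide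

theorem Vm_tri : ∀ i j : Fin 5, j < i → Vm i.castSucc 0 j = 0 := by decide

theorem Vm_diag : ∀ i : Fin 5, Vm i.castSucc 0 i ≠ 0 := by decide

def l2 (p : ℕ × ℕ × ℕ) : List ℕ :=
  [p.1 * p.1, p.1 * p.2.1, p.1 * p.2.2, p.2.1 * p.2.1, p.2.1 * p.2.2, p.2.2 * p.2.2]

def l3 (p : ℕ × ℕ × ℕ) : List ℕ :=
  [p.1 * p.1 * p.1, p.1 * p.1 * p.2.1, p.1 * p.1 * p.2.2, p.1 * p.2.1 * p.2.1, p.1 * p.2.1 * p.2.2,
    p.1 * p.2.2 * p.2.2, p.2.1 * p.2.1 * p.2.1, p.2.1 * p.2.1 * p.2.2, p.2.1 * p.2.2 * p.2.2,
    p.2.2 * p.2.2 * p.2.2]

def resPts : List (ℕ × ℕ × ℕ) :=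
  [(56, 64130, 1), (120, 64138, 1), (64145, 64144, 1), (30, 64156, 1), (64167, 64166, 1), (12, 64174, 1), (64061, 64120, 1), (0, 64183, 1), (0, 1, 0), (14118, 45367, 36497), (5593, 18254, 36497), (29393, 56383, 36497), (28536, 52646, 36497), (48115, 58505, 36497), (36654, 25975, 36497)]

-- prime 64187
/-- `x ⊗ q` is in the kernel for some nonzero `q`. -/
def KerPt (x : Fin 3 → ℂ) : Prop :=
  ∃ q : Fin 5 → ℂ, q ≠ 0 ∧ ∀ i, ∑ c, (∑ a, x a * (Vm i a c : ℂ)) * q c = 0

theorem kerPt_int (x : Fin 3 → ℤ) (q : Fin 5 → ℤ) (hq : q ≠ 0)
    (h : ∀ i, ∑ c, (∑ a, x a * Vm i a c) * q c = 0) : KerPt fun a => (x a : ℂ) := by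
  refine ⟨fun c => (q c : ℂ), fun h0 => hq (funext fun c => ?_), fun i => ?_⟩
  · have := congrFun h0 c
    simp only [Pi.zero_apply] at this ⊢
    exact_mod_cast this
  · have := h i
    simp only
    exact_mod_cast this

def ev {R : Type} [CommRing R] (l : List ℤ) (y : R) : R :=
  l.foldr (fun (c : ℤ) acc => (c : R) + y * acc) 0

theorem map_ev {R S : Type} [CommRing R] [CommRing S] (f : R →+* S) (l : List ℤ) (y : R) :
    f (ev l y) = ev l (f y) := by
  induction l with
  | nil => simp [ev]
  | cons c l ih =>
    simp only [ev, List.foldr_cons, map_add, map_mul, map_intCast] at ih ⊢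
    rw [ih]

noncomputable def mP : ℤ[X] :=
  X ^ 6 + (C (-21143233259593932282040478515625) * X ^ 0 + C (-469366189260704952267187500) * X ^ 1 + C (258069874731818296875) * X ^ 2 + C (57095345339620000) * X ^ 3 + C (416669560125) * X ^ 4 + C (1112268) * X ^ 5)

theorem mP_monic : mP.Monic := by
  unfold mP
  monicity!

def pL : Fin 3 → List ℤ :=
  ![[77690289536330479834040403176830078125, 1091403355553252456159218190265625, -7656894504465377737278868750, -133942967631189560427150, -494126371039950079, -532809852203],
    [0, 36121484173261544380285200000000, 0, 0, 0, 0],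
    [107461415415453094531348470000000000, 0, 0, 0, 0, 0]]

def qL : Fin 5 → List ℤ :=
  ![[-310287239840759886539620802051550816171445312500, -6643305777545459777322934761489629909062500, 34348760298103347583667762374429875000, 852868506256648144557787261251000, 3336920595371248605285542460, 3651928189949968178220],
    [755675306594157275617681385393432757509978515625, 11128086385664889470071647372935910637953125, -74938289017419601244860053152696293750, -1324602749702474407338680438194550, -4697114007303654537374205203, -4865371807697874227471],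
    [-278045160376782090305638150983928448292820312500, -3507568264598663268014664129655440991312500, 27407816991608420499075649357555575000, 419248852354048580219186886463800, 1439946331263047175936975708, 1480343378449212717756],
    [-39268051674262181556264644249970513716744140625, -312133880702213997007221948758794290828125, 3123144710638244402503470496370743750, 34567090771813978915367470101350, 91955317196006983998077291, 75043695269654052887],
    [253161402808680567595638826764641550000000000, 0, 0, 0, 0, 0]]

theorem kerPt_alg (y : ℂ) (hy : aeval y mP = 0) : KerPt fun a => ev (pL a) y := by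
  simp only [mP, map_add, map_mul, map_pow, aeval_X, aeval_C, eq_intCast, map_intCast] at hy
  push_cast at hy
  refine ⟨fun c => ev (qL c) y, fun h0 => ?_, fun i => ?_⟩
  · have := congrFun h0 4
    simp [ev, qL] at this
  · fin_cases i
    · simp only [Fin.sum_univ_five, Fin.sum_univ_three, ev, pL, qL, Vm, Matrix.cons_val,
        List.foldr, Fin.reduceFinMk, Fin.zero_eta, Fin.mk_one, Fin.isValue]
      push_cast
      linear_combination ((85318092012039154420974543768902075765374063360718182500000) * y ^ 0 + (699218327599994125158649143897465962308427681840760000) * y ^ 1 + (-13044500669927022721554248500867857821279342822400) * y ^ 2 + (-82516856269240549509737905255886983958023872) * y ^ 3 + (-110595480627967856694418078322884665504) * y ^ 4) * hy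
    · simp only [Fin.sum_univ_five, Fin.sum_univ_three, ev, pL, qL, Vm, Matrix.cons_val,
        List.foldr, Fin.reduceFinMk, Fin.zero_eta, Fin.mk_one, Fin.isValue]
      push_cast
      linear_combination ((-2294782680517736482649431950597921775702869124704416250000) * y ^ 0 + (-20677933501262086433557058791412093970978292196730000) * y ^ 1 + (389382365539887355598805363913460564413526305200) * y ^ 2 + (2495098528579240912928685196721829885847056) * y ^ 3 + (3368547760788174334282926792278282592) * y ^ 4) * hy
    · simp only [Fin.sum_univ_five, Fin.sum_univ_three, ev, pL, qL, Vm, Matrix.cons_val,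
        List.foldr, Fin.reduceFinMk, Fin.zero_eta, Fin.mk_one, Fin.isValue]
      push_cast
      linear_combination ((1477210915375380200290484504369305381554695384341570546875) * y ^ 0 + (18381408599601051704325870563119384660831592447636250) * y ^ 1 + (-361156335611495311577123517843905212320526060200) * y ^ 2 + (-2461154569332332128180760013405797007293706) * y ^ 3 + (-3456852933432556406389435289019567267) * y ^ 4) * hy
    · simp only [Fin.sum_univ_five, Fin.sum_univ_three, ev, pL, qL, Vm, Matrix.cons_val,
        List.foldr, Fin.reduceFinMk, Fin.zero_eta, Fin.mk_one, Fin.isValue]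
      push_cast
      linear_combination ((259043548392712309377081513219610571621804405684631796875) * y ^ 0 + (310555795337888471411711185376024907894458177826250) * y ^ 1 + (-18248427711847304950501959937173964788557335800) * y ^ 2 + (-69185492343984928793429356269758200150074) * y ^ 3 + (-66493425568305808646888596910081443) * y ^ 4) * hy
    · simp only [Fin.sum_univ_five, Fin.sum_univ_three, ev, pL, qL, Vm, Matrix.cons_val,
        List.foldr, Fin.reduceFinMk, Fin.zero_eta, Fin.mk_one, Fin.isValue]
      push_cast
      linear_combination ((-29817586160844582048483573735605952570377096400000000) * y ^ 0) * hy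
    · simp only [Fin.sum_univ_five, Fin.sum_univ_three, ev, pL, qL, Vm, Matrix.cons_val,
        List.foldr, Fin.reduceFinMk, Fin.zero_eta, Fin.mk_one, Fin.isValue]
      push_cast
      linear_combination ((2710689650985871095316688521418722960943372400000000) * y ^ 0) * hy

section
variable {k : Type} [Field k] [CharP k 64187] (φ : integralClosure ℤ ℂ →+* k)

/-- A kernel point with algebraic integer coordinates and prescribed residues. -/
def LiftPt (p : ℕ × ℕ × ℕ) : Prop :=
  ∃ x : Fin 3 → integralClosure ℤ ℂ, φ (x 0) = p.1 ∧ φ (x 1) = p.2.1 ∧ φ (x 2) = p.2.2 ∧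
    KerPt fun a => (x a : ℂ)

theorem cast_res (z : ℤ) (n : ℕ) (h : z % 64187 = (n : ℤ) % 64187) : ((z : ℤ) : k) = (n : k) := by
  have := (CharP.intCast_eq_intCast k 64187 (a := z) (b := n)).2 h
  simpa using this

theorem liftPt_int (p : ℕ × ℕ × ℕ) (x : Fin 3 → ℤ) (q : Fin 5 → ℤ) (hq : q ≠ 0)
    (h : ∀ i, ∑ c, (∑ a, x a * Vm i a c) * q c = 0) (h0 : x 0 % 64187 = (p.1 : ℤ) % 64187)
    (h1 : x 1 % 64187 = (p.2.1 : ℤ) % 64187) (h2 : x 2 % 64187 = (p.2.2 : ℤ) % 64187) :
    LiftPt φ p := by
  refine ⟨fun a => (x a : integralClosure ℤ ℂ), ?_, ?_, ?_, ?_⟩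
  · rw [map_intCast]; exact cast_res _ _ h0
  · rw [map_intCast]; exact cast_res _ _ h1
  · rw [map_intCast]; exact cast_res _ _ h2
  · simpa using kerPt_int x q hq h

theorem liftPt_alg (p : ℕ × ℕ × ℕ) (r : ℤ) (hr : ev [-21143233259593932282040478515625, -469366189260704952267187500, 258069874731818296875, 57095345339620000, 416669560125, 1112268, 1] r % 64187 = ((0 : ℕ) : ℤ) % 64187)
    (h0 : ev (pL 0) r % 64187 = (p.1 : ℤ) % 64187)
    (h1 : ev (pL 1) r % 64187 = (p.2.1 : ℤ) % 64187) (h2 : ev (pL 2) r % 64187 = (p.2.2 : ℤ) % 64187) :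
    LiftPt φ p := by
  have he : mP.eval r = ev [-21143233259593932282040478515625, -469366189260704952267187500, 258069874731818296875, 57095345339620000, 416669560125, 1112268, 1] r := by
    simp only [mP, ev, List.foldr, eval_add, eval_mul, eval_pow, eval_X, eval_C, Int.cast_id]
    ring
  obtain ⟨y, hy, hyr⟩ := root_lift φ mP mP_monic r (by rw [he, cast_res _ _ hr]; simp)
  have hm : ∀ l, φ (ev l y) = ((ev l r : ℤ) : k) := fun l => by
    rw [map_ev, hyr]
    exact (map_ev (Int.castRingHom k) l r).symm
  refine ⟨fun a => ev (pL a) y, ?_, ?_, ?_, ?_⟩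
  · rw [hm]; exact cast_res _ _ h0
  · rw [hm]; exact cast_res _ _ h1
  · rw [hm]; exact cast_res _ _ h2
  · have := kerPt_alg y hy
    convert this using 2 with a
    exact map_ev (integralClosure ℤ ℂ).val.toRingHom _ _

theorem liftPt_all : ∀ p ∈ resPts, LiftPt φ p := by
  simp only [resPts, List.forall_mem_cons, List.not_mem_nil, IsEmpty.forall_iff, implies_true,
    and_true]
  refine ⟨?_, ?_, ?_, ?_, ?_, ?_, ?_, ?_, ?_, ?_, ?_, ?_, ?_, ?_, ?_⟩
  · exact liftPt_int φ _ ![56, -57, 1] ![360, 318, -83, -39, 1] (by decide) (by decide +kernel) (by decide) (by decide)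
      (by decide)
  · exact liftPt_int φ _ ![120, -49, 1] ![168, 46, -171, -47, 1] (by decide) (by decide +kernel) (by decide) (by decide)
      (by decide)
  · exact liftPt_int φ _ ![-42, -43, 1] ![-480, 556, -27, -53, 1] (by decide) (by decide +kernel) (by decide) (by decide)
      (by decide)
  · exact liftPt_int φ _ ![30, -31, 1] ![672, 604, -135, -65, 1] (by decide) (by decide +kernel) (by decide) (by decide)
      (by decide)
  · exact liftPt_int φ _ ![-20, -21, 1] ![-1008, 1194, -115, -75, 1] (by decide) (by decide +kernel) (by decide) (by decide)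
      (by decide)
  · exact liftPt_int φ _ ![12, -13, 1] ![1680, 1594, -171, -83, 1] (by decide) (by decide +kernel) (by decide) (by decide)
      (by decide)
  · exact liftPt_int φ _ ![-126, -67, 1] ![0, -10, 3, 1, 0] (by decide) (by decide +kernel) (by decide) (by decide)
      (by decide)
  · exact liftPt_int φ _ ![0, -4, 1] ![-315, -73, 3, 1, 0] (by decide) (by decide +kernel) (by decide) (by decide)
      (by decide)
  · exact liftPt_int φ _ ![0, 1, 0] ![1260, 292, -327, -77, 1] (by decide) (by decide +kernel) (by decide) (by decide)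
      (by decide)
  · exact liftPt_alg φ _ 5615 (by decide +kernel) (by decide +kernel) (by decide +kernel)
      (by decide +kernel)
  · exact liftPt_alg φ _ 7821 (by decide +kernel) (by decide +kernel) (by decide +kernel)
      (by decide +kernel)
  · exact liftPt_alg φ _ 22860 (by decide +kernel) (by decide +kernel) (by decide +kernel)
      (by decide +kernel)
  · exact liftPt_alg φ _ 31734 (by decide +kernel) (by decide +kernel) (by decide +kernel)
      (by decide +kernel)
  · exact liftPt_alg φ _ 44839 (by decide +kernel) (by decide +kernel) (by decide +kernel)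
      (by decide +kernel)
  · exact liftPt_alg φ _ 58603 (by decide +kernel) (by decide +kernel) (by decide +kernel)
      (by decide +kernel)

end

end Vale.Agent.P372
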