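import Mathlib

/-!
# Definitions for P372 (secret key from all entangled states)
-/

namespace Vale.Agent.P372

open Matrix Filter Topology
open scoped ComplexOrder MatrixOrder

/-- A state (density operator): a positive semidefinite matrix of trace one. -/
def IsState {X : Type} [Fintype X] (ρ : Matrix X X ℂ) : Prop :=
  ρ.PosSemidef ∧ ρ.trace = 1

/-- A separable state: a finite convex combination of product states `α ⊗ β`. -/
def Separable {A B : Type} [Fintype A] [Fintype B] (ρ : Matrix (A × B) (A × B) ℂ) : Prop :=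
  ∃ (m : ℕ) (p : Fin m → ℝ) (α : Fin m → Matrix A A ℂ) (β : Fin m → Matrix B B ℂ),
    (∀ i, 0 ≤ p i) ∧ ∑ i, p i = 1 ∧ (∀ i, IsState (α i)) ∧ (∀ i, IsState (β i)) ∧
    ρ = ∑ i, (p i : ℂ) • kroneckerMap (· * ·) (α i) (β i)

/-- The vector `ψ` on `A B E` is a purification of `ρ`: `ρ = tr_E |ψ⟩⟨ψ|`. -/
def IsPurification {X E : Type} [Fintype E] (ψ : X × E → ℂ) (ρ : Matrix X X ℂ) : Prop :=
  ∀ x y, ρ x y = ∑ e, ψ (x, e) * star (ψ (y, e))

/-- The trace norm `‖X‖₁ = tr √(X* X)`. -/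
noncomputable def traceNorm {X : Type} [Fintype X] [DecidableEq X] (M : Matrix X X ℂ) : ℝ :=
  (CFC.sqrt (M.conjTranspose * M)).trace.re

/-- Keys of length `ℓ`. -/
abbrev Key (ℓ : ℕ) : Type := Fin ℓ → Bool

/-- A key-distillation protocol with key length `ℓ`, public messages in `Fin m` and `r` rounds
left, when Alice currently holds a system of dimension `a` and Bob one of dimension `b`.
It is a finite tree (who speaks and what is done may depend on all earlier messages).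
* `done`: each party measures his or her system with a POVM; the outcomes are `K_A`, `K_B`.
* `alice`: Alice applies an arbitrary local quantum instrument with outcomes `x : Fin m`
  (Kraus operators `K x i`, output dimension `a' x`; this covers ancillas, private randomness,
  discarding) and announces `x` publicly; the protocol continues with `next x`.
* `bob`: the same for Bob.
A silent local operation, or an idle round, is an instrument with one sure outcome. -/
inductive Protocol (ℓ m : ℕ) : ℕ → ℕ → ℕ → Type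
  | done {a b : ℕ} (MA : Key ℓ → Matrix (Fin a) (Fin a) ℂ) (MB : Key ℓ → Matrix (Fin b) (Fin b) ℂ)
      (hA : ∀ k, (MA k).PosSemidef) (hA1 : ∑ k, MA k = 1)
      (hB : ∀ k, (MB k).PosSemidef) (hB1 : ∑ k, MB k = 1) : Protocol ℓ m 0 a b
  | alice {r a b : ℕ} (s : ℕ) (a' : Fin m → ℕ)
      (K : (x : Fin m) → Fin s → Matrix (Fin (a' x)) (Fin a) ℂ)
      (hK : ∑ x, ∑ i, (K x i).conjTranspose * K x i = 1)
      (next : (x : Fin m) → Protocol ℓ m r (a' x) b) : Protocol ℓ m (r + 1) a b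
  | bob {r a b : ℕ} (s : ℕ) (b' : Fin m → ℕ)
      (K : (x : Fin m) → Fin s → Matrix (Fin (b' x)) (Fin b) ℂ)
      (hK : ∑ x, ∑ i, (K x i).conjTranspose * K x i = 1)
      (next : (x : Fin m) → Protocol ℓ m r a (b' x)) : Protocol ℓ m (r + 1) a b

/-- Operators on `(A ⊗ B) ⊗ E`. -/
abbrev Op (a b : ℕ) (E : Type) : Type := Matrix ((Fin a × Fin b) × E) ((Fin a × Fin b) × E) ℂ

/-- The completely positive map `Ω ↦ ∑ᵢ (Vᵢ ⊗ 1_E) Ω (Vᵢ ⊗ 1_E)*`. -/
noncomputable def applyKraus {a b a' b' s : ℕ} {E : Type} [Fintype E] [DecidableEq E]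
    (V : Fin s → Matrix (Fin a' × Fin b') (Fin a × Fin b) ℂ) (Ω : Op a b E) : Op a' b' E :=
  ∑ i, kroneckerMap (· * ·) (V i) (1 : Matrix E E ℂ) * Ω *
    (kroneckerMap (· * ·) (V i) (1 : Matrix E E ℂ)).conjTranspose

/-- The partial trace `tr_{AB} ((O ⊗ 1_E) Ω)`. -/
noncomputable def measureAB {a b : ℕ} {E : Type} [Fintype E] [DecidableEq E]
    (O : Matrix (Fin a × Fin b) (Fin a × Fin b) ℂ) (Ω : Op a b E) : Matrix E E ℂ :=
  Matrix.of fun e e' =>
    ∑ x, (kroneckerMap (· * ·) O (1 : Matrix E E ℂ) * Ω) (x, e) (x, e')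

/-- Run the protocol on a joint operator `Ω` on `(A ⊗ B) ⊗ E`.  `eve π Ω t k k'` is the
unnormalised state of Eve's quantum system `E` on the event that the sequence of public
messages is `t`, `K_A = k` and `K_B = k'` (its trace is the probability of that event). -/
noncomputable def Protocol.eve {ℓ m : ℕ} {E : Type} [Fintype E] [DecidableEq E] {r a b : ℕ}
    (π : Protocol ℓ m r a b) : Op a b E → (Fin r → Fin m) → Key ℓ → Key ℓ → Matrix E E ℂ :=
  Protocol.rec
    (motive := fun r a b _ => Op a b E → (Fin r → Fin m) → Key ℓ → Key ℓ → Matrix E E ℂ)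
    (fun MA MB _ _ _ _ Ω _ k k' => measureAB (kroneckerMap (· * ·) (MA k) (MB k')) Ω)
    (fun {_ _ b} _ _ K _ _ rest Ω t k k' =>
      rest (t 0) (applyKraus
        (fun i => kroneckerMap (· * ·) (K (t 0) i) (1 : Matrix (Fin b) (Fin b) ℂ)) Ω)
        (Fin.tail t) k k')
    (fun {_ a _} _ _ K _ _ rest Ω t k k' =>
      rest (t 0) (applyKraus
        (fun i => kroneckerMap (· * ·) (1 : Matrix (Fin a) (Fin a) ℂ) (K (t 0) i)) Ω)
        (Fin.tail t) k k')
    π

/-- The final state `τ` on `K_A K_B E'`, where `E'` is the transcript together with `E`: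
`τ = ∑ |k,k'⟩⟨k,k'| ⊗ |t⟩⟨t| ⊗ eve t k k'`. -/
noncomputable def Protocol.final {ℓ m : ℕ} {E : Type} [Fintype E] [DecidableEq E] {r a b : ℕ}
    (π : Protocol ℓ m r a b) (Ω : Op a b E) :
    Matrix ((Key ℓ × Key ℓ) × ((Fin r → Fin m) × E)) ((Key ℓ × Key ℓ) × ((Fin r → Fin m) × E)) ℂ :=
  Matrix.of fun u v =>
    if u.1 = v.1 ∧ u.2.1 = v.2.1 then π.eve Ω u.2.1 u.1.1 u.1.2 u.2.2 v.2.2 else 0

/-- The ideal key state `2^{-ℓ} ∑_z |z,z⟩⟨z,z|`. -/
noncomputable def idealKey (ℓ : ℕ) : Matrix (Key ℓ × Key ℓ) (Key ℓ × Key ℓ) ℂ :=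
  Matrix.diagonal fun z => if z.1 = z.2 then ((2 : ℂ) ^ ℓ)⁻¹ else 0

/-- The protocol `π`, run on the pure state `φ` of `A B E`, has error `ε`. -/
def HasError {ℓ m r a b : ℕ} {E : Type} [Fintype E] [DecidableEq E] (π : Protocol ℓ m r a b)
    (φ : (Fin a × Fin b) × E → ℂ) (ε : ℝ) : Prop :=
  ∃ σ : Matrix ((Fin r → Fin m) × E) ((Fin r → Fin m) × E) ℂ, IsState σ ∧
    traceNorm (π.final (vecMulVec φ (star φ)) - kroneckerMap (· * ·) (idealKey ℓ) σ) ≤ ε

/-- `ψ^{⊗ n}` as a vector on `Aⁿ Bⁿ Eⁿ`; the basis of `Aⁿ` is numbered by `Fin (dA ^ n)`. -/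
noncomputable def tensorPow {dA dB : ℕ} {E : Type} (ψ : (Fin dA × Fin dB) × E → ℂ) (n : ℕ) :
    (Fin (dA ^ n) × Fin (dB ^ n)) × (Fin n → E) → ℂ :=
  fun u => ∏ i, ψ ((finFunctionFinEquiv.symm u.1.1 i, finFunctionFinEquiv.symm u.1.2 i), u.2 i)

/-- The distillable secret key `K_D`, for Eve holding the purification `ψ`: the supremum of
`liminf ℓ_n / n` over all sequences of protocols on `n` copies with errors `ε_n → 0`. -/
noncomputable def keyRate {dA dB : ℕ} {E : Type} [Fintype E] [DecidableEq E]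
    (ψ : (Fin dA × Fin dB) × E → ℂ) : ENNReal :=
  sSup {R | ∃ (ℓ m r : ℕ → ℕ) (π : (n : ℕ) → Protocol (ℓ n) (m n) (r n) (dA ^ n) (dB ^ n))
    (ε : ℕ → ℝ),
    Tendsto ε atTop (𝓝 0) ∧ (∀ n, HasError (π n) (tensorPow ψ n) (ε n)) ∧
    R = liminf (fun n : ℕ => (ℓ n : ENNReal) / (n : ENNReal)) atTop}

end Vale.Agent.P372
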