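import Vale.Agent.P372.Data

namespace Vale.Agent.P372

theorem check_true :
    lcheck 64187 (resPts.map fun p => (l2 p, l3 p)) (lid 6) (lid 10) = true := by
  decide +kernel

end Vale.Agent.P372
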