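import Vale.Agent.P372.Good
import Vale.Agent.P372.Run

/-!
An entangled state of the form `(Φ ⊗ Ψ)(|ω⟩⟨ω|)` with `Φ`, `Ψ` completely positive and
completely copositive.
-/

namespace Vale.Agent.P372

open Matrix
open scoped Kronecker ComplexOrder

noncomputable def K0 (i : Fin 6) (a : Fin 3) (c : Fin 5) : ℂ :=
  (Real.sqrt (dw i) : ℝ) * (Vm i a c : ℂ)

theorem K0_mul (i : Fin 6) (a a' : Fin 3) (c c' : Fin 5) :
    K0 i a c * star (K0 i a' c') = (((dw i : ℤ) * (Vm i a c * Vm i a' c') : ℤ) : ℂ) := by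
  have h : ((Real.sqrt (dw i) : ℝ) : ℂ) * (Real.sqrt (dw i) : ℝ) = (dw i : ℂ) := by
    rw [← Complex.ofReal_mul, Real.mul_self_sqrt (Nat.cast_nonneg _)]
    simp
  simp only [K0, star_mul', Complex.star_def, Complex.conj_ofReal, map_intCast]
  push_cast
  rw [← h]
  ring

theorem symGram_K0 : SymGram K0 := by
  intro a c a' c'
  simp only [K0_mul]
  exact_mod_cast flat_int a c a' c'

noncomputable def KK {n : ℕ} {M : Type} [DecidableEq M] (π : (Fin n → Fin 3) → M)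
    (i : Fin n → Fin 6) (m : M) (c : Fin n → Fin 5) : ℂ :=
  ∑ a : Fin n → Fin 3, if π a = m then ∏ s, K0 (i s) (a s) (c s) else 0

theorem KK_gram {n : ℕ} {M : Type} [DecidableEq M] (π : (Fin n → Fin 3) → M)
    (m m' : M) (c c' : Fin n → Fin 5) :
    ∑ i, KK π i m c * star (KK π i m' c') =
      ∑ a : Fin n → Fin 3, ∑ a' : Fin n → Fin 3, if π a = m ∧ π a' = m' then
        ∏ s, ∑ i, K0 i (a s) (c s) * star (K0 i (a' s) (c' s)) else 0 := by
  simp only [KK, star_sum, Finset.sum_mul_sum]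
  rw [Finset.sum_comm]
  refine Finset.sum_congr rfl fun a _ => ?_
  rw [Finset.sum_comm]
  refine Finset.sum_congr rfl fun a' _ => ?_
  by_cases h1 : π a = m <;> by_cases h2 : π a' = m' <;> simp only [h1, h2, if_true, if_false,
    and_self, star_zero, mul_zero, zero_mul, Finset.sum_const_zero, and_false, false_and]
  rw [Finset.prod_univ_sum]
  simp only [Fintype.piFinset_univ, star_prod, Finset.prod_mul_distrib]

theorem symGram_KK {n : ℕ} {M : Type} [DecidableEq M] (π : (Fin n → Fin 3) → M) :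
    SymGram (KK π) := by
  intro m c m' c'
  rw [KK_gram, KK_gram]
  refine Finset.sum_congr rfl fun a _ => Finset.sum_congr rfl fun a' _ => ?_
  congr 1
  exact Finset.prod_congr rfl fun s _ => symGram_K0 _ _ _ _

theorem KK_pair {n : ℕ} {M : Type} [DecidableEq M] [Fintype M] (π : (Fin n → Fin 3) → M)
    (v : M → ℂ) (x : Fin 3 → ℂ) (hv : ∀ a, v (π a) = ∏ s, x (a s)) (i : Fin n → Fin 6)
    (c : Fin n → Fin 5) :
    ∑ m, v m * KK π i m c = ∏ s, ∑ a, x a * K0 (i s) a (c s) := by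
  simp only [KK, Finset.mul_sum]
  rw [Finset.sum_comm, Finset.prod_univ_sum]
  simp only [Fintype.piFinset_univ, Finset.prod_mul_distrib, mul_ite, mul_zero,
    Finset.sum_ite_eq, Finset.mem_univ, if_true, hv]

noncomputable def om (c : Fin 2 → Fin 5) (d : Fin 3 → Fin 5) : ℂ :=
  ∑ σ : Equiv.Perm (Fin 5),
    if ![σ 0, σ 1] = c then if ![σ 2, σ 3, σ 4] = d then ((Equiv.Perm.sign σ : ℤ) : ℂ) else 0
    else 0

theorem om_det (u : Fin 2 → Fin 5 → ℂ) (w : Fin 3 → Fin 5 → ℂ) :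
    ∑ c : Fin 2 → Fin 5, ∑ d : Fin 3 → Fin 5, (∏ s, u s (c s)) * (∏ t, w t (d t)) * om c d =
      (Matrix.of ![u 0, u 1, w 0, w 1, w 2]).det := by
  rw [← Matrix.det_transpose, Matrix.det_apply']
  simp only [om, Finset.mul_sum]
  calc _ = ∑ c : Fin 2 → Fin 5, ∑ σ : Equiv.Perm (Fin 5), ∑ d : Fin 3 → Fin 5, _ :=
        Finset.sum_congr rfl fun c _ => Finset.sum_comm
    _ = ∑ σ : Equiv.Perm (Fin 5), ∑ c : Fin 2 → Fin 5, ∑ d : Fin 3 → Fin 5, _ := Finset.sum_comm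
    _ = _ := by
      refine Finset.sum_congr rfl fun σ _ => ?_
      rw [Finset.sum_eq_single ![σ 0, σ 1] (fun c _ hc => by simp [Ne.symm hc]) (by simp)]
      rw [Finset.sum_eq_single ![σ 2, σ 3, σ 4] (fun c _ hc => by simp [Ne.symm hc]) (by simp)]
      simp [Fin.prod_univ_five, Fin.prod_univ_three]
      ring

def t2 : Fin 3 → Fin 3 → Fin 6 := ![![0, 1, 2], ![1, 3, 4], ![2, 4, 5]]

def t3 : Fin 3 → Fin 3 → Fin 3 → Fin 10 :=
  ![![![0, 1, 2], ![1, 3, 4], ![2, 4, 5]], ![![1, 3, 4], ![3, 6, 7], ![4, 7, 8]], ![![2, 4, 5], ![4, 7, 8], ![5, 8, 9]]]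

def p2 (a : Fin 2 → Fin 3) : Fin 6 := t2 (a 0) (a 1)

def p3 (a : Fin 3 → Fin 3) : Fin 10 := t3 (a 0) (a 1) (a 2)

def v2 {R : Type} [Mul R] (x : Fin 3 → R) : Fin 6 → R :=
  ![x 0 * x 0, x 0 * x 1, x 0 * x 2, x 1 * x 1, x 1 * x 2, x 2 * x 2]

def v3 {R : Type} [Mul R] (x : Fin 3 → R) : Fin 10 → R :=
  ![x 0 * x 0 * x 0, x 0 * x 0 * x 1, x 0 * x 0 * x 2, x 0 * x 1 * x 1, x 0 * x 1 * x 2, x 0 * x 2 * x 2, x 1 * x 1 * x 1, x 1 * x 1 * x 2, x 1 * x 2 * x 2, x 2 * x 2 * x 2]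

theorem v2_p2 (x : Fin 3 → ℂ) (a : Fin 2 → Fin 3) : v2 x (p2 a) = ∏ s, x (a s) := by
  rw [Fin.prod_univ_two, p2]
  generalize a 0 = i, a 1 = j
  fin_cases i <;> fin_cases j <;> simp [v2, t2] <;> ring

theorem v3_p3 (x : Fin 3 → ℂ) (a : Fin 3 → Fin 3) : v3 x (p3 a) = ∏ s, x (a s) := by
  rw [Fin.prod_univ_three, p3]
  generalize a 0 = i, a 1 = j, a 2 = l
  fin_cases i <;> fin_cases j <;> fin_cases l <;> simp [v3, t3, -mul_eq_mul_right_iff] <;> ring

noncomputable def vv (i : Fin 2 → Fin 6) (j : Fin 3 → Fin 6) (a : Fin 6) (b : Fin 10) : ℂ :=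
  ∑ c, ∑ d, KK p2 i a c * KK p3 j b d * om c d

noncomputable def rowK (x : Fin 3 → ℂ) (i : Fin 6) (c : Fin 5) : ℂ := ∑ a, x a * K0 i a c

theorem vv_pair (x : Fin 3 → ℂ) (i : Fin 2 → Fin 6) (j : Fin 3 → Fin 6) :
    ∑ a, ∑ b, v2 x a * v3 x b * vv i j a b =
      (Matrix.of ![rowK x (i 0), rowK x (i 1), rowK x (j 0), rowK x (j 1), rowK x (j 2)]).det := by
  rw [← om_det (fun s => rowK x (i s)) (fun s => rowK x (j s))]
  simp only [rowK, ← KK_pair p2 (v2 x) x (v2_p2 x), ← KK_pair p3 (v3 x) x (v3_p3 x), vv,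
    Finset.mul_sum, Finset.sum_mul]
  calc _ = ∑ a, ∑ c : Fin 2 → Fin 5, ∑ b, ∑ d : Fin 3 → Fin 5, _ :=
        Finset.sum_congr rfl fun a _ => Finset.sum_comm
    _ = ∑ c : Fin 2 → Fin 5, ∑ a, ∑ b, ∑ d : Fin 3 → Fin 5, _ := Finset.sum_comm
    _ = ∑ c : Fin 2 → Fin 5, ∑ a, ∑ d : Fin 3 → Fin 5, ∑ b, _ :=
        Finset.sum_congr rfl fun c _ => Finset.sum_congr rfl fun a _ => Finset.sum_comm
    _ = ∑ c : Fin 2 → Fin 5, ∑ d : Fin 3 → Fin 5, ∑ a, ∑ b, _ :=
        Finset.sum_congr rfl fun c _ => Finset.sum_comm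
    _ = ∑ c : Fin 2 → Fin 5, ∑ d : Fin 3 → Fin 5, ∑ b, ∑ a, _ :=
        Finset.sum_congr rfl fun c _ => Finset.sum_congr rfl fun a _ => Finset.sum_comm
    _ = _ := by
      refine Finset.sum_congr rfl fun c _ => Finset.sum_congr rfl fun d _ =>
        Finset.sum_congr rfl fun b _ => Finset.sum_congr rfl fun a _ => ?_
      ring

theorem vv_ker (x : Fin 3 → ℂ) (hx : KerPt x) (i : Fin 2 → Fin 6) (j : Fin 3 → Fin 6) :
    ∑ a, ∑ b, v2 x a * v3 x b * vv i j a b = 0 := by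
  obtain ⟨q, hq, h⟩ := hx
  rw [vv_pair, ← Matrix.exists_mulVec_eq_zero_iff]
  have hr : ∀ i, rowK x i ⬝ᵥ q = 0 := by
    intro i
    have h2 : rowK x i ⬝ᵥ q = (Real.sqrt (dw i) : ℝ) * ∑ c, (∑ a, x a * (Vm i a c : ℂ)) * q c := by
      simp only [dotProduct, rowK, K0, Finset.mul_sum, Finset.sum_mul]
      refine Finset.sum_congr rfl fun c _ => Finset.sum_congr rfl fun a _ => ?_
      ring
    rw [h2, h, mul_zero]
  refine ⟨q, hq, ?_⟩
  ext r
  fin_cases r <;> exact hr _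

theorem vv_ne : ∃ i j a b, vv i j a b ≠ 0 := by
  by_contra hc
  push Not at hc
  have h := vv_pair ![1, 0, 0] ![0, 1] ![2, 3, 4]
  simp only [hc, mul_zero, Finset.sum_const_zero] at h
  have h2 : (Matrix.of ![rowK ![1, 0, 0] (![0, 1] 0), rowK ![1, 0, 0] (![0, 1] 1),
      rowK ![1, 0, 0] (![2, 3, 4] 0), rowK ![1, 0, 0] (![2, 3, 4] 1),
      rowK ![1, 0, 0] (![2, 3, 4] 2)]) = Matrix.of fun i j : Fin 5 => K0 i.castSucc 0 j := by
    ext r c
    fin_cases r <;> simp [rowK, Fin.sum_univ_three]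
  rw [h2, Matrix.det_of_isUpperTriangular, eq_comm, Finset.prod_eq_zero_iff] at h
  · obtain ⟨r, _, hr⟩ := h
    have h3 := dw_pos r.castSucc
    have h4 := Vm_diag r
    simp only [Matrix.of_apply, K0, mul_eq_zero, Complex.ofReal_eq_zero, Int.cast_eq_zero, h4,
      or_false] at hr
    rw [Real.sqrt_eq_zero (Nat.cast_nonneg _)] at hr
    exact h3.ne' (by exact_mod_cast hr)
  · intro r c hrc
    simp [K0, Vm_tri r c hrc]

theorem partition (f : Fin 6 → ℂ) (g : Fin 10 → ℂ)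
    (h : ∀ x, KerPt x → ∑ a, f a * v2 x a = 0 ∨ ∑ b, g b * v3 x b = 0) : f = 0 ∨ g = 0 := by
  obtain ⟨k, _, _, ⟨φ⟩⟩ := exists_residue 64187 (by norm_num)
  refine check_sound (φ := φ) (ι := (integralClosure ℤ ℂ).val.toRingHom) Subtype.val_injective
    64187 (by norm_num) _ ?_ _ _ check_true (cov_id f) (cov_id g)
  intro uv huv
  obtain ⟨p, hp, rfl⟩ := List.mem_map.1 huv
  obtain ⟨x, h0, h1, h2, hx⟩ := liftPt_all φ p hp
  refine ⟨v2 x, v3 x, ⟨rfl, fun i => ?_⟩, ⟨rfl, fun i => ?_⟩, ?_⟩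
  · fin_cases i <;> simp [v2, l2, h0, h1, h2]
  · fin_cases i <;> simp [v3, l3, h0, h1, h2]
  · have e2 : ∀ a, (integralClosure ℤ ℂ).val.toRingHom (v2 x a) = v2 (fun a => (x a : ℂ)) a := by
      intro a
      fin_cases a <;> simp [v2]
    have e3 : ∀ a, (integralClosure ℤ ℂ).val.toRingHom (v3 x a) = v3 (fun a => (x a : ℂ)) a := by
      intro a
      fin_cases a <;> simp [v3]
    simp only [e2, e3]
    exact h _ hx

theorem psd_row {n : ℕ} (α : Matrix (Fin n) (Fin n) ℂ) (hα : IsState α) :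
    ∃ f : Fin n → ℂ, f ≠ 0 ∧ ∀ v : Fin n → ℂ,
      ∑ a, ∑ a', v a * α a a' * star (v a') = 0 → ∑ a, f a * v a = 0 := by
  have : ∃ r, α r r ≠ 0 := by
    by_contra hc
    push Not at hc
    have := hα.2
    simp [Matrix.trace, hc] at this
  obtain ⟨r, hr⟩ := this
  refine ⟨fun a => star (α r a), fun h0 => hr (by simpa using congrFun h0 r), fun v hv => ?_⟩
  have h1 : α *ᵥ star v = 0 := by
    rw [← hα.1.dotProduct_mulVec_zero_iff, ← hv]
    simp only [dotProduct, Matrix.mulVec, star_star, Finset.mul_sum, Pi.star_apply, mul_assoc]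
  have h2 := congrArg star (congrFun h1 r)
  simpa [Matrix.mulVec, dotProduct, star_sum] using h2

theorem psd_form {n : ℕ} (α : Matrix (Fin n) (Fin n) ℂ) (hα : α.PosSemidef) (v : Fin n → ℂ) :
    0 ≤ ∑ a, ∑ a', v a * α a a' * star (v a') := by
  have := hα.dotProduct_mulVec_nonneg (star v)
  simpa only [dotProduct, Matrix.mulVec, star_star, Finset.mul_sum, Pi.star_apply, mul_assoc]
    using this

theorem not_separable (ρ : Matrix (Fin 6 × Fin 10) (Fin 6 × Fin 10) ℂ)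
    (h : ∀ x, KerPt x → ∑ a, ∑ a', ∑ b, ∑ b',
      (v2 x a * v3 x b) * ρ (a, b) (a', b') * star (v2 x a' * v3 x b') = 0) : ¬ Separable ρ := by
  rintro ⟨m, p, α, β, hp, hp1, hα, hβ, rfl⟩
  have : ∃ r, p r ≠ 0 := by
    by_contra hc
    push Not at hc
    simp [hc] at hp1
  obtain ⟨r, hr⟩ := this
  obtain ⟨f, hf, hf2⟩ := psd_row _ (hα r)
  obtain ⟨g, hg, hg2⟩ := psd_row _ (hβ r)
  refine (partition f g fun x hx => ?_).elim hf hg
  have h1 := h x hx
  have h2 : ∑ i, (p i : ℂ) * ((∑ a, ∑ a', v2 x a * α i a a' * star (v2 x a')) *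
      (∑ b, ∑ b', v3 x b * β i b b' * star (v3 x b'))) = 0 := by
    rw [← h1]
    simp only [Matrix.sum_apply, Matrix.smul_apply, kroneckerMap_apply, smul_eq_mul,
      Finset.mul_sum, Finset.sum_mul, star_mul']
    calc _ = ∑ i, ∑ a, ∑ a', ∑ b, ∑ b', (p i : ℂ) * ((v2 x a * α i a a' * star (v2 x a')) *
        (v3 x b * β i b b' * star (v3 x b'))) := by
          refine Finset.sum_congr rfl fun i _ => ?_
          calc _ = ∑ b, ∑ a, ∑ b', ∑ a', _ := Finset.sum_congr rfl fun c _ => Finset.sum_comm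
            _ = ∑ a, ∑ b, ∑ b', ∑ a', _ := Finset.sum_comm
            _ = ∑ a, ∑ b, ∑ a', ∑ b', _ :=
              Finset.sum_congr rfl fun c _ => Finset.sum_congr rfl fun a _ => Finset.sum_comm
            _ = ∑ a, ∑ a', ∑ b, ∑ b', _ := Finset.sum_congr rfl fun c _ => Finset.sum_comm
      _ = ∑ a, ∑ i, ∑ a', ∑ b, ∑ b', _ := Finset.sum_comm
      _ = ∑ a, ∑ a', ∑ i, ∑ b, ∑ b', _ := Finset.sum_congr rfl fun c _ => Finset.sum_comm
      _ = ∑ a, ∑ a', ∑ b, ∑ i, ∑ b', _ :=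
              Finset.sum_congr rfl fun c _ => Finset.sum_congr rfl fun a _ => Finset.sum_comm
      _ = ∑ a, ∑ a', ∑ b, ∑ b', ∑ i, _ :=
              Finset.sum_congr rfl fun c _ => Finset.sum_congr rfl fun a _ =>
                Finset.sum_congr rfl fun a _ => Finset.sum_comm
      _ = _ := by
        refine Finset.sum_congr rfl fun c _ => Finset.sum_congr rfl fun d _ =>
          Finset.sum_congr rfl fun b _ => Finset.sum_congr rfl fun a _ =>
          Finset.sum_congr rfl fun a _ => ?_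
        ring
  rw [Finset.sum_eq_zero_iff_of_nonneg (fun i _ => mul_nonneg (by exact_mod_cast hp i)
    (mul_nonneg (psd_form _ (hα i).1 _) (psd_form _ (hβ i).1 _)))] at h2
  have h3 := h2 r (Finset.mem_univ _)
  rw [mul_eq_zero, mul_eq_zero] at h3
  rcases h3 with h3 | h3 | h3
  · exact absurd (by exact_mod_cast h3) hr
  · exact Or.inl (hf2 _ h3)
  · exact Or.inr (hg2 _ h3)

theorem sum_four_zero {A B : Type*} [Fintype A] [Fintype B] (F : A → B → A → B → ℂ)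
    (w : A → B → ℂ) (h : ∀ a' b', ∑ a, ∑ b, F a b a' b' = 0) :
    ∑ a, ∑ a', ∑ b, ∑ b', F a b a' b' * w a' b' = 0 := by
  rw [Finset.sum_comm]
  refine Finset.sum_eq_zero fun a' _ => ?_
  have e : ∀ a, ∑ b, ∑ b', F a b a' b' * w a' b' = ∑ b', ∑ b, F a b a' b' * w a' b' :=
    fun a => Finset.sum_comm
  simp only [e]
  rw [Finset.sum_comm]
  refine Finset.sum_eq_zero fun b' _ => ?_
  simp only [← Finset.sum_mul, h, zero_mul]

theorem exists_good : ∃ (dA dB : ℕ) (ρ : Matrix (Fin dA × Fin dB) (Fin dA × Fin dB) ℂ),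
    IsState ρ ∧ Good ρ ∧ ¬ Separable ρ := by
  set t : ℝ := ∑ u : Fin 6 × Fin 10, ∑ i, ∑ j, Complex.normSq (vv i j u.1 u.2) with ht
  have ht0 : 0 < t := by
    obtain ⟨i, j, a, b, h⟩ := vv_ne
    have nn : ∀ (u : Fin 6 × Fin 10) i j, 0 ≤ Complex.normSq (vv i j u.1 u.2) :=
      fun u i j => Complex.normSq_nonneg _
    refine Finset.sum_pos' (fun u _ => Finset.sum_nonneg fun i _ => Finset.sum_nonneg fun j _ =>
      nn u i j) ⟨(a, b), Finset.mem_univ _, Finset.sum_pos' (fun i _ => Finset.sum_nonneg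
        fun j _ => nn _ i j) ⟨i, Finset.mem_univ _, Finset.sum_pos' (fun j _ => nn _ i j)
          ⟨j, Finset.mem_univ _, Complex.normSq_pos.2 h⟩⟩⟩
  set s : ℂ := (((Real.sqrt t)⁻¹ : ℝ) : ℂ) with hs
  have hss : s * star s * t = 1 := by
    rw [hs, Complex.star_def, Complex.conj_ofReal, ← Complex.ofReal_mul, ← Complex.ofReal_mul,
      ← mul_inv, Real.mul_self_sqrt ht0.le, inv_mul_cancel₀ ht0.ne']
    simp
  clear_value s
  obtain ⟨W, hWd⟩ : ∃ W : Matrix (Fin 6 × Fin 10) ((Fin 2 → Fin 6) × (Fin 3 → Fin 6)) ℂ,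
      ∀ u i, W u i = s * vv i.1 i.2 u.1 u.2 := ⟨Matrix.of fun u i => _, fun u i => rfl⟩
  have hW : ∀ u u', (W * Wᴴ) u u' =
      ∑ i, ∑ j, (s * vv i j u.1 u.2) * star (s * vv i j u'.1 u'.2) := by
    intro u u'
    simp only [Matrix.mul_apply, conjTranspose_apply, hWd, Fintype.sum_prod_type]
  refine ⟨6, 10, W * Wᴴ, ⟨Matrix.posSemidef_self_mul_conjTranspose W, ?_⟩, ?_, ?_⟩
  · rw [← hss, ht]
    simp only [Matrix.trace, Matrix.diag, hW]
    push_cast
    simp only [Finset.mul_sum]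
    refine Finset.sum_congr rfl fun c _ => Finset.sum_congr rfl fun d _ =>
      Finset.sum_congr rfl fun b _ => ?_
    rw [← Complex.mul_conj, star_mul', Complex.star_def]
    ring
  · refine ⟨Fin 2 → Fin 5, Fin 3 → Fin 5, Fin 2 → Fin 6, Fin 3 → Fin 6, inferInstance,
      inferInstance, inferInstance, inferInstance, KK p2, KK p3, fun c d => s * om c d,
      symGram_KK _, symGram_KK _, fun a b a' b' => ?_⟩
    have e : ∀ i j a b, ∑ c, ∑ d, KK p2 i a c * KK p3 j b d * (s * om c d) = s * vv i j a b := by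
      intro i j a b
      simp only [vv, Finset.mul_sum]
      refine Finset.sum_congr rfl fun c _ => Finset.sum_congr rfl fun d _ => ?_
      ring
    simp only [hW, e]
  · refine not_separable _ fun x hx => ?_
    have h2 : (fun u : Fin 6 × Fin 10 => v2 x u.1 * v3 x u.2) ᵥ* W = 0 := by
      ext i
      have := vv_ker x hx i.1 i.2
      simp only [Matrix.vecMul, dotProduct, hWd, Fintype.sum_prod_type, Pi.zero_apply]
      rw [← mul_zero s, ← this]
      simp only [Finset.mul_sum]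
      refine Finset.sum_congr rfl fun c _ => Finset.sum_congr rfl fun d _ => ?_
      ring
    have h3 : (fun u : Fin 6 × Fin 10 => v2 x u.1 * v3 x u.2) ᵥ* (W * Wᴴ) = 0 := by
      rw [← Matrix.vecMul_vecMul, h2, Matrix.zero_vecMul]
    have h4 : ∀ a' b', ∑ a, ∑ b, (v2 x a * v3 x b) * (W * Wᴴ) (a, b) (a', b') = 0 := by
      intro a' b'
      have := congrFun h3 (a', b')
      simpa only [Matrix.vecMul, dotProduct, Fintype.sum_prod_type, Pi.zero_apply] using this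
    exact sum_four_zero (fun a b a' b' => (v2 x a * v3 x b) * (W * Wᴴ) (a, b) (a', b'))
      (fun a' b' => star (v2 x a' * v3 x b')) h4

end Vale.Agent.P372
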