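import Vale.Agent.P372.Defs

/-!
Interface between the two halves of the proof: `Good ρ` says that
`ρ = (Φ ⊗ Ψ)(|ω⟩⟨ω|)` with `Φ`, `Ψ` in Kraus form with transpose-symmetric Gram tensors.
-/

namespace Vale.Agent.P372

/-- The Kraus family `K` has Gram tensor symmetric under exchange of the two input indices. -/
def SymGram {I A C : Type} [Fintype I] (K : I → A → C → ℂ) : Prop :=
  ∀ a c a' c', ∑ i, K i a c * star (K i a' c') = ∑ i, K i a c' * star (K i a' c)

/-- `ρ = ∑_{i,j} |v_{ij}⟩⟨v_{ij}|` with `v_{ij} = (K_i ⊗ L_j) ω`. -/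
def Good {A B : Type} (ρ : Matrix (A × B) (A × B) ℂ) : Prop :=
  ∃ (C D I J : Type) (_ : Fintype C) (_ : Fintype D) (_ : Fintype I) (_ : Fintype J)
    (K : I → A → C → ℂ) (L : J → B → D → ℂ) (ω : C → D → ℂ),
    SymGram K ∧ SymGram L ∧
    ∀ a b a' b', ρ (a, b) (a', b') =
      ∑ i, ∑ j, (∑ c, ∑ d, K i a c * L j b d * ω c d) *
        star (∑ c, ∑ d, K i a' c * L j b' d * ω c d)

end Vale.Agent.P372
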