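import Vale.Agent.P372.Ineq
import Vale.Agent.P372.Good

/-! Eve can guess a bit shared by Alice and Bob when the state is `Good`. -/

namespace Vale.Agent.P372

open Matrix
open scoped Kronecker ComplexOrder MatrixOrder

section
variable {X E : Type} [Fintype X] [DecidableEq X] [Fintype E] [DecidableEq E]

lemma schur_aux {O : Matrix X X ℂ} {Ψ : Matrix X E ℂ} {C : Matrix E E ℂ} (hO : O.PosSemidef)
    (hC : C.PosDef) (h : (C - Ψᴴ * O * Ψ).PosSemidef) :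
    (O - O * Ψ * C⁻¹ * (O * Ψ)ᴴ).PosSemidef := by
  have hd : IsUnit C.det := (isUnit_iff_isUnit_det C).mp hC.isUnit
  have c2 : C⁻¹ * C = 1 := nonsing_inv_mul C hd
  have hCi : (C⁻¹)ᴴ = C⁻¹ := hC.inv.isHermitian.eq
  have p1 := hO.conjTranspose_mul_mul_same (1 - Ψ * (C⁻¹ * Ψᴴ * O))
  have p2 := h.conjTranspose_mul_mul_same (C⁻¹ * Ψᴴ * O)
  refine psd_of_eq (p1.add p2) ?_
  have k : ∀ M : Matrix E X ℂ, C⁻¹ * (C * M) = M := by
    intro M; rw [← Matrix.mul_assoc, c2, Matrix.one_mul]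
  simp only [conjTranspose_sub, conjTranspose_one, conjTranspose_mul, conjTranspose_conjTranspose,
    hCi, hO.isHermitian.eq, Matrix.sub_mul, Matrix.mul_sub, Matrix.one_mul, Matrix.mul_one,
    Matrix.mul_assoc, k]
  abel

lemma schur_block {O0 O1 : Matrix X X ℂ} {Ψ : Matrix X E ℂ} {C : Matrix E E ℂ}
    (h0 : O0.PosSemidef) (h1 : O1.PosSemidef) (hC : C.PosDef)
    (g0 : (C - Ψᴴ * O0 * Ψ).PosSemidef) (g1 : (C - Ψᴴ * O1 * Ψ).PosSemidef) :
    (fromBlocks O1 (O1 * Ψ * C⁻¹ * (O0 * Ψ)ᴴ) (O1 * Ψ * C⁻¹ * (O0 * Ψ)ᴴ)ᴴ O0).PosSemidef := by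
  have hCi : (C⁻¹)ᴴ = C⁻¹ := hC.inv.isHermitian.eq
  have p1 := psd_diag_blocks (schur_aux h1 hC g1) (schur_aux h0 hC g0)
  have p2 := hC.inv.posSemidef.mul_mul_conjTranspose_same (fromRows (O1 * Ψ) (O0 * Ψ))
  refine psd_of_eq (p1.add p2) ?_
  rw [conjTranspose_fromRows_eq_fromCols_conjTranspose, fromRows_mul _ _ C⁻¹,
    fromRows_mul_fromCols, fromBlocks_add]
  simp only [conjTranspose_mul, conjTranspose_conjTranspose, hCi, zero_add, sub_add_cancel,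
    Matrix.mul_assoc]

lemma trace_lower {s0 s1 Dp Dm : Matrix E E ℂ} (h0 : s0.PosSemidef) (hp : Dp.PosSemidef)
    (hm : Dm.PosSemidef) (hD : s0 - s1 = Dp - Dm) (hmp : Dm * Dp = 0) {e : ℝ} (he : 0 < e) :
    ∃ C : Matrix E E ℂ, C.PosDef ∧ (C - s0).PosSemidef ∧ (C - s1).PosSemidef ∧
      s0.trace.re - Dp.trace.re - e * Fintype.card E ≤ (s1 * C⁻¹ * s0).trace.re := by
  have he' : (0 : ℂ) < (e : ℂ) := by exact_mod_cast he
  have c1 : ((e : ℂ) • (1 : Matrix E E ℂ)).PosDef := PosDef.one.smul he'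
  set ε : Matrix E E ℂ := (e : ℂ) • (1 : Matrix E E ℂ) with hε
  have hC : (s0 + Dm + ε).PosDef := PosDef.posSemidef_add (h0.add hm) c1
  set C := s0 + Dm + ε with hCdef
  have e0 : C - s0 = Dm + ε := by rw [hCdef]; abel
  have e1 : C - s1 = Dp + ε := by
    rw [hCdef]
    calc s0 + Dm + ε - s1 = (s0 - s1) + Dm + ε := by abel
      _ = _ := by rw [hD]; abel
  refine ⟨C, hC, e0 ▸ hm.add c1.posSemidef, e1 ▸ hp.add c1.posSemidef, ?_⟩
  have hd : IsUnit C.det := (isUnit_iff_isUnit_det C).mp hC.isUnit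
  have c2 : C⁻¹ * C = 1 := nonsing_inv_mul C hd
  have c3 : C * C⁻¹ = 1 := mul_nonsing_inv C hd
  have a1 : s1 = C - (Dp + ε) := by rw [← e1]; abel
  have a0 : s0 = C - (Dm + ε) := by rw [← e0]; abel
  have k : s1 * C⁻¹ * s0 = s0 - (Dp + ε) + (Dp + ε) * C⁻¹ * (Dm + ε) := by
    calc s1 * C⁻¹ * s0 = (C * C⁻¹) * s0 - (Dp + ε) * C⁻¹ * s0 := by
          rw [a1, Matrix.sub_mul, Matrix.sub_mul]
      _ = s0 - (Dp + ε) * C⁻¹ * (C - (Dm + ε)) := by rw [c3, Matrix.one_mul, ← a0]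
      _ = _ := by
          rw [Matrix.mul_sub, Matrix.mul_assoc _ C⁻¹ C, c2, Matrix.mul_one]; abel
  have hpos : ((Dm + ε) * (Dp + ε)).PosSemidef := by
    have := (hm.add (hp.add c1.posSemidef)).smul he'.le
    refine psd_of_eq this ?_
    rw [Matrix.add_mul, Matrix.mul_add, hmp, hε]
    simp only [Matrix.mul_smul, Matrix.smul_mul, Matrix.mul_one, Matrix.one_mul, smul_add,
      zero_add]
  have t := trace_mul_nonneg hpos hC.inv.posSemidef
  have t2 : ((Dp + ε) * C⁻¹ * (Dm + ε)).trace = ((Dm + ε) * (Dp + ε) * C⁻¹).trace := by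
    rw [trace_mul_comm, Matrix.mul_assoc]
  rw [k, trace_add, trace_sub, trace_add, t2]
  have t3 : ε.trace.re = e * Fintype.card E := by
    rw [hε, trace_smul, trace_one]; simp
  simp only [Complex.add_re, Complex.sub_re, t3]
  linarith

end

section
variable {A B C D I J : Type} [Fintype A] [Fintype B] [Fintype C] [Fintype D] [Fintype I]
  [Fintype J]

/-- Heisenberg picture of a Kraus family. -/
noncomputable def heis {X Y : Type} [Fintype X] (V : I → Matrix X Y ℂ) (Z : Matrix X X ℂ) :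
    Matrix Y Y ℂ := ∑ i, (V i)ᴴ * Z * V i

lemma heis_psd {X Y : Type} [Fintype X] [Fintype Y] (V : I → Matrix X Y ℂ) {Z : Matrix X X ℂ}
    (hZ : Z.PosSemidef) : (heis V Z).PosSemidef :=
  posSemidef_sum _ fun i _ => hZ.conjTranspose_mul_mul_same (V i)

omit [Fintype I] in
lemma fromBlocks_sum {X : Type} (s : Finset I) (a b c d : I → Matrix X X ℂ) :
    ∑ i ∈ s, fromBlocks (a i) (b i) (c i) (d i) =
      fromBlocks (∑ i ∈ s, a i) (∑ i ∈ s, b i) (∑ i ∈ s, c i) (∑ i ∈ s, d i) := by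
  ext (x | x) (y | y) <;> simp [Matrix.sum_apply]

lemma heis_block {X Y : Type} [Fintype X] [Fintype Y] (V : I → Matrix X Y ℂ)
    {O1 Z O0 : Matrix X X ℂ} (h : (fromBlocks O1 Z Zᴴ O0).PosSemidef) :
    (fromBlocks (heis V O1) (heis V Z) (heis V Z)ᴴ (heis V O0)).PosSemidef := by
  have := heis_psd (fun i => fromBlocks (V i) 0 0 (V i)) h
  refine psd_of_eq this ?_
  simp only [heis, fromBlocks_conjTranspose, fromBlocks_multiply, conjTranspose_zero,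
    Matrix.zero_mul, Matrix.mul_zero, add_zero, zero_add, fromBlocks_sum, conjTranspose_sum,
    conjTranspose_mul, conjTranspose_conjTranspose, Matrix.mul_assoc]

omit [Fintype C] [Fintype D] in
lemma heis_kron (K : I → Matrix A C ℂ) (L : J → Matrix B D ℂ) (P : Matrix A A ℂ)
    (Q : Matrix B B ℂ) :
    heis (fun ij : I × J => K ij.1 ⊗ₖ L ij.2) (P ⊗ₖ Q) = heis K P ⊗ₖ heis L Q := by
  simp only [heis, conjTranspose_kronecker, ← mul_kronecker_mul]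
  ext ⟨c, d⟩ ⟨c', d'⟩
  simp only [Matrix.sum_apply, kroneckerMap_apply, Fintype.sum_prod_type, Finset.sum_mul_sum]

lemma heis_apply {X Y : Type} [Fintype X] (V : I → Matrix X Y ℂ) (Z : Matrix X X ℂ) (y y' : Y) :
    heis V Z y y' = ∑ x, ∑ x', Z x x' * ∑ i, V i x' y' * star (V i x y) := by
  simp only [heis, Matrix.sum_apply, mul_apply, conjTranspose_apply, Finset.sum_mul,
    Finset.mul_sum]
  rw [Finset.sum_comm]
  conv_rhs => rw [Finset.sum_comm]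
  refine Finset.sum_congr rfl fun x' _ => ?_
  rw [Finset.sum_comm]
  refine Finset.sum_congr rfl fun x _ => Finset.sum_congr rfl fun i _ => ?_
  ring

omit [Fintype C] [Fintype D] in
lemma heis_symm (K : I → Matrix A C ℂ) (L : J → Matrix B D ℂ) (hK : SymGram K) (hL : SymGram L)
    (Z : Matrix (A × B) (A × B) ℂ) :
    (heis (fun ij : I × J => K ij.1 ⊗ₖ L ij.2) Z)ᵀ =
      heis (fun ij : I × J => K ij.1 ⊗ₖ L ij.2) Z := by
  ext ⟨c, d⟩ ⟨c', d'⟩
  rw [transpose_apply, heis_apply, heis_apply]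
  refine Finset.sum_congr rfl fun ⟨a, b⟩ _ => Finset.sum_congr rfl fun ⟨a', b'⟩ _ => ?_
  congr 1
  have e : ∀ c d c' d', ∑ ij : I × J, (K ij.1 ⊗ₖ L ij.2) (a', b') (c, d) *
      star ((K ij.1 ⊗ₖ L ij.2) (a, b) (c', d')) =
      (∑ i, K i a' c * star (K i a c')) * (∑ j, L j b' d * star (L j b d')) := by
    intro c d c' d'
    rw [Finset.sum_mul_sum, Fintype.sum_prod_type]
    refine Finset.sum_congr rfl fun i _ => Finset.sum_congr rfl fun j _ => ?_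
    simp only [kroneckerMap_apply, star_mul']
    ring
  rw [e, e, hK a' c a c', hL b' d b d']

lemma trace_heis {X Y : Type} [Fintype X] [Fintype Y] (V : I → Matrix X Y ℂ) (w : Y → ℂ)
    (Z ρ : Matrix X X ℂ) (hρ : ∀ x x', ρ x x' = ∑ i, (V i *ᵥ w) x * star ((V i *ᵥ w) x')) :
    (Z * ρ).trace = star w ⬝ᵥ (heis V Z *ᵥ w) := by
  have e : ρ = ∑ i, vecMulVec (V i *ᵥ w) (star (V i *ᵥ w)) := by
    ext x x'
    rw [hρ, Matrix.sum_apply]
    rfl
  rw [e, heis, Matrix.mul_sum, trace_sum, sum_mulVec, dotProduct_sum]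
  refine Finset.sum_congr rfl fun i _ => ?_
  rw [mul_vecMulVec, trace_vecMulVec, ← mulVec_mulVec, ← mulVec_mulVec, dotProduct_mulVec (star w),
    ← star_mulVec, dotProduct_comm]

end

theorem guess {A B E : Type} [Fintype A] [DecidableEq A] [Fintype B] [DecidableEq B] [Fintype E]
    [DecidableEq E] {ρ : Matrix (A × B) (A × B) ℂ} (hρ : Good ρ) (Ψ : Matrix (A × B) E ℂ)
    (hΨ : Ψ * Ψᴴ = ρ) {P0 P1 : Matrix A A ℂ} {Q0 Q1 : Matrix B B ℂ} (hP0 : P0.PosSemidef)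
    (hP1 : P1.PosSemidef) (hQ0 : Q0.PosSemidef) (hQ1 : Q1.PosSemidef) :
    ∃ G : Matrix E E ℂ, G.PosSemidef ∧ (1 - G).PosSemidef ∧
      ((1 - G) * (Ψᴴ * (P0 ⊗ₖ Q0) * Ψ)).trace.re + (G * (Ψᴴ * (P1 ⊗ₖ Q1) * Ψ)).trace.re ≤
        ((Ψᴴ * (P0 ⊗ₖ Q1) * Ψ).trace.re + (Ψᴴ * (P1 ⊗ₖ Q0) * Ψ).trace.re) / 2 := by
  classical
  obtain ⟨C, D, I, J, _, _, _, _, K, L, ω, hK, hL, hρ⟩ := hρ
  let K' : I → Matrix A C ℂ := K
  let L' : J → Matrix B D ℂ := L
  let V : I × J → Matrix (A × B) (C × D) ℂ := fun ij => K' ij.1 ⊗ₖ L' ij.2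
  let w : C × D → ℂ := fun cd => ω cd.1 cd.2
  have htr : ∀ Z : Matrix (A × B) (A × B) ℂ,
      (Ψᴴ * Z * Ψ).trace = star w ⬝ᵥ (heis V Z *ᵥ w) := by
    intro Z
    rw [← trace_heis V w Z ρ, trace_mul_comm, ← Matrix.mul_assoc, hΨ, trace_mul_comm]
    rintro ⟨a, b⟩ ⟨a', b'⟩
    rw [hρ, Fintype.sum_prod_type]
    simp only [V, w, mulVec, dotProduct, Fintype.sum_prod_type, kroneckerMap_apply]
    rfl
  have h00 := hP0.kronecker hQ0
  have h11 := hP1.kronecker hQ1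
  have s0 := h00.conjTranspose_mul_mul_same Ψ
  have s1 := h11.conjTranspose_mul_mul_same Ψ
  obtain ⟨Dp, Dm, G, hp, hm, hD, -, hmp, hG, hG', hGD⟩ := jordan (s0.1.sub s1.1)
  refine ⟨G, hG, hG', ?_⟩
  have lhs : ((1 - G) * (Ψᴴ * (P0 ⊗ₖ Q0) * Ψ)).trace.re + (G * (Ψᴴ * (P1 ⊗ₖ Q1) * Ψ)).trace.re
      = (Ψᴴ * (P0 ⊗ₖ Q0) * Ψ).trace.re - Dp.trace.re := by
    rw [← hGD, Matrix.sub_mul, Matrix.one_mul, Matrix.mul_sub, trace_sub, trace_sub]
    simp only [Complex.sub_re]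
    ring
  rw [lhs]
  have key : ∀ e : ℝ, 0 < e →
      (Ψᴴ * (P0 ⊗ₖ Q0) * Ψ).trace.re - Dp.trace.re - e * Fintype.card E ≤
        ((Ψᴴ * (P0 ⊗ₖ Q1) * Ψ).trace.re + (Ψᴴ * (P1 ⊗ₖ Q0) * Ψ).trace.re) / 2 := by
    intro e he
    obtain ⟨Cm, hC, g0, g1, hle⟩ := trace_lower s0 hp hm hD hmp he
    refine hle.trans ?_
    have blk := heis_block V (schur_block h00 h11 hC g0 g1)
    set Z := (P1 ⊗ₖ Q1) * Ψ * Cm⁻¹ * ((P0 ⊗ₖ Q0) * Ψ)ᴴ with hZ
    have hZt : Ψᴴ * (P1 ⊗ₖ Q1) * Ψ * Cm⁻¹ * (Ψᴴ * (P0 ⊗ₖ Q0) * Ψ) = Ψᴴ * Z * Ψ := by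
      rw [hZ, conjTranspose_mul, h00.1.eq]
      simp only [Matrix.mul_assoc]
    rw [hZt, htr, htr, htr]
    set W := heis V Z with hW
    have sW : Wᵀ = W := heis_symm K' L' hK hL Z
    have sW' : (Wᴴ)ᵀ = Wᴴ := by
      conv_rhs => rw [← sW]
      rfl
    have blk2 := blk.transpose
    rw [fromBlocks_transpose, sW, sW', heis_symm K' L' hK hL, heis_symm K' L' hK hL] at blk2
    have h12 : (0 : ℂ) ≤ 1 / 2 := by norm_num [Complex.nonneg_iff]
    have blk3 : (fromBlocks (heis V (P1 ⊗ₖ Q1)) ((1 / 2 : ℂ) • (W + Wᴴ))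
        ((1 / 2 : ℂ) • (W + Wᴴ)) (heis V (P0 ⊗ₖ Q0))).PosSemidef := by
      refine psd_of_eq ((blk.add blk2).smul h12) ?_
      rw [fromBlocks_add, fromBlocks_smul, add_comm Wᴴ W]
      congr 1 <;> module
    have hH : ((1 / 2 : ℂ) • (W + Wᴴ)).IsHermitian := by
      unfold IsHermitian
      rw [conjTranspose_smul, conjTranspose_add, conjTranspose_conjTranspose, add_comm]
      simp
    simp only [V, heis_kron] at blk3 ⊢
    have fin := tensor_le (heis_psd K' hP0) (heis_psd K' hP1) (heis_psd L' hQ0) (heis_psd L' hQ1)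
      hH blk3 w
    refine le_trans (le_of_eq ?_) fin
    have h2 : star w ⬝ᵥ (Wᴴ *ᵥ w) = star (star w ⬝ᵥ (W *ᵥ w)) := by
      rw [dotProduct_mulVec, ← star_mulVec, star_dotProduct]
    rw [smul_mulVec, add_mulVec, dotProduct_smul, dotProduct_add, h2]
    simp
    ring
  have lim : Filter.Tendsto (fun e : ℝ => (Ψᴴ * (P0 ⊗ₖ Q0) * Ψ).trace.re - Dp.trace.re -
      e * Fintype.card E) (nhdsWithin 0 (Set.Ioi 0))
      (nhds ((Ψᴴ * (P0 ⊗ₖ Q0) * Ψ).trace.re - Dp.trace.re - 0 * Fintype.card E)) := by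
    apply Filter.Tendsto.mono_left _ nhdsWithin_le_nhds
    apply Continuous.tendsto
    fun_prop
  have := le_of_tendsto lim (Filter.eventually_of_mem self_mem_nhdsWithin fun e he => key e he)
  simpa using this

end Vale.Agent.P372
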