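import Vale.Agent.P372.Spec

/-! The operator inequality `H ≤ (X₀ ⊗ Y₁ + X₁ ⊗ Y₀) / 2`. -/

namespace Vale.Agent.P372

open Matrix
open scoped Kronecker ComplexOrder MatrixOrder

variable {X : Type} [Fintype X] [DecidableEq X]

lemma psd_of_eq {Y : Type} {A B : Matrix Y Y ℂ} (h : A.PosSemidef) (e : A = B) :
    B.PosSemidef := e ▸ h

lemma psd_diag_blocks {Y Z : Type} [Fintype Y] [DecidableEq Y] [Fintype Z] [DecidableEq Z]
    {P : Matrix Y Y ℂ} {Q : Matrix Z Z ℂ} (hP : P.PosSemidef) (hQ : Q.PosSemidef) :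
    (fromBlocks P 0 0 Q).PosSemidef := by
  have a := hP.conjTranspose_mul_mul_same (fromCols (1 : Matrix Y Y ℂ) (0 : Matrix Y Z ℂ))
  have b := hQ.conjTranspose_mul_mul_same (fromCols (0 : Matrix Z Y ℂ) (1 : Matrix Z Z ℂ))
  refine psd_of_eq (a.add b) ?_
  rw [conjTranspose_fromCols_eq_fromRows_conjTranspose,
    conjTranspose_fromCols_eq_fromRows_conjTranspose, fromRows_mul _ _ P, fromRows_mul _ _ Q,
    fromRows_mul_fromCols, fromRows_mul_fromCols, fromBlocks_add]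
  simp

lemma gen_eig {N H : Matrix X X ℂ} (hN : N.PosDef) (hH : H.IsHermitian)
    (h : ¬ (N - H).PosSemidef) :
    ∃ (v : X → ℂ) (l : ℝ), v ≠ 0 ∧ 1 < l ∧ H *ᵥ v = (l : ℂ) • (N *ᵥ v) := by
  obtain ⟨R, hR, rfl⟩ := CStarAlgebra.isStrictlyPositive_iff_eq_star_mul_self.mp
    (isStrictlyPositive_iff_posDef.mpr hN)
  rw [star_eq_conjTranspose] at *
  have hd : IsUnit R.det := (isUnit_iff_isUnit_det R).mp hR
  have r1 : R * R⁻¹ = 1 := mul_nonsing_inv R hd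
  have r2 : R⁻¹ * R = 1 := nonsing_inv_mul R hd
  have r3 : Rᴴ * (R⁻¹)ᴴ = 1 := by rw [← conjTranspose_mul, r2, conjTranspose_one]
  set G := (R⁻¹)ᴴ * H * R⁻¹ with hG
  have hGh : (1 - G).IsHermitian :=
    isHermitian_one.sub (isHermitian_conjTranspose_mul_mul _ hH)
  have hHG : H = Rᴴ * G * R := by
    rw [hG]
    calc H = (Rᴴ * (R⁻¹)ᴴ) * H * (R⁻¹ * R) := by rw [r3, r2]; simp
      _ = _ := by simp only [Matrix.mul_assoc]
  have hnot : ¬ (1 - G).PosSemidef := by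
    intro hp
    apply h
    have := hp.conjTranspose_mul_mul_same R
    rw [hHG]
    convert this using 1
    simp [Matrix.mul_sub, Matrix.sub_mul]
  rw [hGh.posSemidef_iff_eigenvalues_nonneg] at hnot
  have : ∃ i, hGh.eigenvalues i < 0 := by
    by_contra hc
    push Not at hc
    exact hnot hc
  obtain ⟨i, hi⟩ := this
  set u : X → ℂ := ⇑(hGh.eigenvectorBasis i) with hu
  have hu0 : u ≠ 0 := by
    intro h0
    have := (hGh.eigenvectorBasis.orthonormal.1 i)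
    have h2 : hGh.eigenvectorBasis i = 0 := by
      ext j
      exact congrFun h0 j
    rw [h2] at this
    simp at this
  have he : (1 - G) *ᵥ u = (hGh.eigenvalues i) • u := hGh.mulVec_eigenvectorBasis i
  set m := hGh.eigenvalues i
  have hGu : G *ᵥ u = ((1 - m : ℝ) : ℂ) • u := by
    rw [sub_mulVec, one_mulVec] at he
    have : G *ᵥ u = u - m • u := by rw [← he]; abel
    rw [this]
    ext j
    simp
    ring
  have hRv : R *ᵥ (R⁻¹ *ᵥ u) = u := by rw [mulVec_mulVec, r1, one_mulVec]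
  refine ⟨R⁻¹ *ᵥ u, 1 - m, ?_, by linarith, ?_⟩
  · intro h0
    rw [h0, mulVec_zero] at hRv
    exact hu0 hRv.symm
  · conv_lhs => rw [hHG]
    rw [← mulVec_mulVec, hRv, ← mulVec_mulVec, hGu, mulVec_smul, ← mulVec_mulVec, hRv]

lemma le_of_block {A B N H : Matrix X X ℂ} (hB : B.PosDef) (hN : N.PosDef) (hH : H.IsHermitian)
    (hblk : (fromBlocks A H H B).PosSemidef) (hS : (N * B⁻¹ * N - A).PosSemidef) :
    (N - H).PosSemidef := by
  by_contra hc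
  obtain ⟨v, l, hv, hl, he⟩ := gen_eig hN hH hc
  have hdN : IsUnit N.det := (isUnit_iff_isUnit_det N).mp hN.isUnit
  have hdB : IsUnit B.det := (isUnit_iff_isUnit_det B).mp hB.isUnit
  have n1 : N * N⁻¹ = 1 := mul_nonsing_inv N hdN
  have n2 : N⁻¹ * N = 1 := nonsing_inv_mul N hdN
  have b1 : B * B⁻¹ = 1 := mul_nonsing_inv B hdB
  have hNi : (N⁻¹)ᴴ = N⁻¹ := hN.inv.isHermitian.eq
  have hS' : (N⁻¹ * B)ᴴ = B * N⁻¹ := by rw [conjTranspose_mul, hNi, hB.isHermitian.eq]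
  have p1 := hblk.conjTranspose_mul_mul_same (fromRows (N⁻¹ * B) (-1 : Matrix X X ℂ))
  have p2 := hS.conjTranspose_mul_mul_same (N⁻¹ * B)
  have p3 := p1.add p2
  have e : (fromRows (N⁻¹ * B) (-1 : Matrix X X ℂ))ᴴ * fromBlocks A H H B *
      fromRows (N⁻¹ * B) (-1 : Matrix X X ℂ) +
      (N⁻¹ * B)ᴴ * (N * B⁻¹ * N - A) * (N⁻¹ * B) =
      B + B - B * (N⁻¹ * H) - (B * (N⁻¹ * H))ᴴ := by
    rw [conjTranspose_fromRows_eq_fromCols_conjTranspose, fromCols_mul_fromBlocks,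
      fromCols_mul_fromRows, hS', conjTranspose_mul, conjTranspose_mul, hNi, hH.eq,
      hB.isHermitian.eq]
    have k : B * N⁻¹ * (N * B⁻¹ * N) * (N⁻¹ * B) = B := by
      calc B * N⁻¹ * (N * B⁻¹ * N) * (N⁻¹ * B)
          = B * (N⁻¹ * N) * B⁻¹ * (N * N⁻¹) * B := by simp only [Matrix.mul_assoc]
        _ = B := by rw [n1, n2, Matrix.mul_one, Matrix.mul_one, b1, Matrix.one_mul]
    rw [Matrix.mul_sub, Matrix.sub_mul, k]
    simp only [conjTranspose_neg, conjTranspose_one, Matrix.neg_mul, Matrix.one_mul,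
      Matrix.mul_neg, Matrix.mul_one, Matrix.add_mul, Matrix.mul_assoc]
    abel
  rw [e] at p3
  have q := p3.dotProduct_mulVec_nonneg v
  have hb := hB.dotProduct_mulVec_pos hv
  have h1 : (B * (N⁻¹ * H)) *ᵥ v = (l : ℂ) • (B *ᵥ v) := by
    rw [← mulVec_mulVec, ← mulVec_mulVec, he, mulVec_smul, mulVec_mulVec, n2, one_mulVec,
      mulVec_smul]
  have h2 : star v ⬝ᵥ ((B * (N⁻¹ * H))ᴴ *ᵥ v) = star (star v ⬝ᵥ ((B * (N⁻¹ * H)) *ᵥ v)) := by
    rw [dotProduct_mulVec, ← star_mulVec, star_dotProduct]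
  rw [sub_mulVec, sub_mulVec, add_mulVec, dotProduct_sub, dotProduct_sub, dotProduct_add, h2,
    h1, dotProduct_smul] at q
  set β := star v ⬝ᵥ (B *ᵥ v)
  obtain ⟨hb1, hb2⟩ := Complex.pos_iff.mp hb
  have q1 := (Complex.nonneg_iff.mp q).1
  simp [← hb2] at q1
  nlinarith

variable {C D : Type} [Fintype C] [DecidableEq C] [Fintype D] [DecidableEq D]

lemma tensor_le_pd {X0 X1 : Matrix C C ℂ} {Y0 Y1 : Matrix D D ℂ}
    {H : Matrix (C × D) (C × D) ℂ} (hX0 : X0.PosDef) (hX1 : X1.PosDef) (hY0 : Y0.PosDef)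
    (hY1 : Y1.PosDef) (hH : H.IsHermitian)
    (hblk : (fromBlocks (X1 ⊗ₖ Y1) H H (X0 ⊗ₖ Y0)).PosSemidef) :
    ((1 / 2 : ℂ) • (X0 ⊗ₖ Y1 + X1 ⊗ₖ Y0) - H).PosSemidef := by
  have h12 : (0 : ℂ) < 1 / 2 := by norm_num [Complex.pos_iff]
  have h14 : (0 : ℂ) ≤ 1 / 4 := by norm_num [Complex.nonneg_iff]
  have hB := hX0.kronecker hY0
  refine le_of_block hB (((hX0.kronecker hY1).add (hX1.kronecker hY0)).smul h12) hH hblk ?_
  have hdX : IsUnit X0.det := (isUnit_iff_isUnit_det _).mp hX0.isUnit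
  have hdY : IsUnit Y0.det := (isUnit_iff_isUnit_det _).mp hY0.isUnit
  have x1 : X0 * X0⁻¹ = 1 := mul_nonsing_inv _ hdX
  have x2 : X0⁻¹ * X0 = 1 := nonsing_inv_mul _ hdX
  have y1 : Y0 * Y0⁻¹ = 1 := mul_nonsing_inv _ hdY
  have y2 : Y0⁻¹ * Y0 = 1 := nonsing_inv_mul _ hdY
  set U := X0 ⊗ₖ Y1 with hU
  set V := X1 ⊗ₖ Y0 with hV
  set Bi := (X0 ⊗ₖ Y0)⁻¹ with hBi
  have e1 : U * Bi * V = X1 ⊗ₖ Y1 := by
    rw [hU, hV, hBi, inv_kronecker, ← mul_kronecker_mul, ← mul_kronecker_mul, x1,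
      Matrix.mul_assoc Y1, y2, Matrix.one_mul, Matrix.mul_one]
  have e2 : V * Bi * U = X1 ⊗ₖ Y1 := by
    rw [hU, hV, hBi, inv_kronecker, ← mul_kronecker_mul, ← mul_kronecker_mul, y1,
      Matrix.mul_assoc X1, x2, Matrix.one_mul, Matrix.mul_one]
  have hM : (U - V)ᴴ = U - V :=
    ((hX0.kronecker hY1).isHermitian.sub (hX1.kronecker hY0).isHermitian).eq
  have p := (hB.inv.posSemidef.conjTranspose_mul_mul_same (U - V)).smul h14
  rw [hM] at p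
  refine psd_of_eq p ?_
  simp only [Matrix.smul_mul, Matrix.mul_smul, Matrix.add_mul, Matrix.mul_add, Matrix.sub_mul,
    Matrix.mul_sub, ← hBi, e1, e2]
  module

lemma tensor_le {X0 X1 : Matrix C C ℂ} {Y0 Y1 : Matrix D D ℂ}
    {H : Matrix (C × D) (C × D) ℂ} (hX0 : X0.PosSemidef) (hX1 : X1.PosSemidef)
    (hY0 : Y0.PosSemidef) (hY1 : Y1.PosSemidef) (hH : H.IsHermitian)
    (hblk : (fromBlocks (X1 ⊗ₖ Y1) H H (X0 ⊗ₖ Y0)).PosSemidef) (w : C × D → ℂ) :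
    (star w ⬝ᵥ (H *ᵥ w)).re ≤
      ((star w ⬝ᵥ ((X0 ⊗ₖ Y1) *ᵥ w)).re + (star w ⬝ᵥ ((X1 ⊗ₖ Y0) *ᵥ w)).re) / 2 := by
  let f : ℝ → ℝ := fun δ =>
    ((star w ⬝ᵥ (((X0 + (δ : ℂ) • (1 : Matrix C C ℂ)) ⊗ₖ
        (Y1 + (δ : ℂ) • (1 : Matrix D D ℂ))) *ᵥ w)).re +
      (star w ⬝ᵥ (((X1 + (δ : ℂ) • (1 : Matrix C C ℂ)) ⊗ₖ
        (Y0 + (δ : ℂ) • (1 : Matrix D D ℂ))) *ᵥ w)).re) / 2
  have hf : Continuous f := by
    simp only [f, kronecker_add, add_kronecker, kronecker_smul, smul_kronecker, add_mulVec,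
      smul_mulVec, dotProduct_add, dotProduct_smul, smul_eq_mul]
    fun_prop
  have key : ∀ δ : ℝ, 0 < δ → (star w ⬝ᵥ (H *ᵥ w)).re ≤ f δ := by
    intro δ hδ
    have hδ' : (0 : ℂ) < (δ : ℂ) := by exact_mod_cast hδ
    have c1 : ((δ : ℂ) • (1 : Matrix C C ℂ)).PosDef := PosDef.one.smul hδ'
    have d1 : ((δ : ℂ) • (1 : Matrix D D ℂ)).PosDef := PosDef.one.smul hδ'
    have extra : ∀ {X' : Matrix C C ℂ} {Y' : Matrix D D ℂ}, X'.PosSemidef → Y'.PosSemidef →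
        ((X' + (δ : ℂ) • (1 : Matrix C C ℂ)) ⊗ₖ (Y' + (δ : ℂ) • (1 : Matrix D D ℂ)) -
          X' ⊗ₖ Y').PosSemidef := by
      intro X' Y' hX' hY'
      have := (hX'.kronecker d1.posSemidef).add
        (c1.posSemidef.kronecker (hY'.add d1.posSemidef))
      refine psd_of_eq this ?_
      rw [add_kronecker, kronecker_add X']
      abel
    have hb2 := hblk.add (psd_diag_blocks (extra hX1 hY1) (extra hX0 hY0))
    rw [fromBlocks_add, add_zero, add_sub_cancel, add_sub_cancel] at hb2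
    have p := tensor_le_pd (PosDef.posSemidef_add hX0 c1) (PosDef.posSemidef_add hX1 c1)
      (PosDef.posSemidef_add hY0 d1) (PosDef.posSemidef_add hY1 d1) hH hb2
    have q := (Complex.nonneg_iff.mp (p.dotProduct_mulVec_nonneg w)).1
    rw [sub_mulVec, smul_mulVec, add_mulVec, dotProduct_sub, dotProduct_smul,
      dotProduct_add] at q
    simp only [f]
    generalize star w ⬝ᵥ (((X0 + (δ : ℂ) • (1 : Matrix C C ℂ)) ⊗ₖ
        (Y1 + (δ : ℂ) • (1 : Matrix D D ℂ))) *ᵥ w) = s at q ⊢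
    generalize star w ⬝ᵥ (((X1 + (δ : ℂ) • (1 : Matrix C C ℂ)) ⊗ₖ
        (Y0 + (δ : ℂ) • (1 : Matrix D D ℂ))) *ᵥ w) = t at q ⊢
    simp only [smul_eq_mul, Complex.sub_re, Complex.mul_re, Complex.add_re] at q
    norm_num at q
    linarith
  have lim : Filter.Tendsto f (nhdsWithin 0 (Set.Ioi 0)) (nhds (f 0)) :=
    hf.continuousAt.tendsto.mono_left nhdsWithin_le_nhds
  have := ge_of_tendsto lim (Filter.eventually_of_mem self_mem_nhdsWithin fun δ hδ => key δ hδ)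
  simpa [f] using this

end Vale.Agent.P372
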