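import Vale.Agent.P372.Good

/-! `Good` is stable under tensor powers. -/

namespace Vale.Agent.P372

open Matrix

lemma sum_prod_pi {n : ℕ} {I : Type} [Fintype I] (f : Fin n → I → ℂ) :
    ∑ x : Fin n → I, ∏ s, f s (x s) = ∏ s, ∑ i, f s i := by
  rw [Finset.prod_univ_sum, Fintype.piFinset_univ]

lemma symGram_pow {n : ℕ} {I A A' C : Type} [Fintype I] {K : I → A → C → ℂ} (hK : SymGram K)
    (g : A' → Fin n → A) :
    SymGram (fun (x : Fin n → I) (a : A') (c : Fin n → C) => ∏ s, K (x s) (g a s) (c s)) := by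
  intro a c a' c'
  simp only [star_prod, ← Finset.prod_mul_distrib]
  rw [sum_prod_pi (fun s i => K i (g a s) (c s) * star (K i (g a' s) (c' s))),
    sum_prod_pi (fun s i => K i (g a s) (c' s) * star (K i (g a' s) (c s)))]
  exact Finset.prod_congr rfl fun s _ => hK _ _ _ _

theorem good_pow {dA dB : ℕ} {E : Type} [Fintype E]
    {ρ : Matrix (Fin dA × Fin dB) (Fin dA × Fin dB) ℂ} (hρ : Good ρ)
    {ψ : (Fin dA × Fin dB) × E → ℂ} (hψ : IsPurification ψ ρ) (n : ℕ) :
    Good ((Matrix.of fun x e => tensorPow ψ n (x, e)) *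
      (Matrix.of fun x e => tensorPow ψ n (x, e))ᴴ) := by
  classical
  obtain ⟨C, D, I, J, _, _, _, _, K, L, ω, hK, hL, hρ⟩ := hρ
  refine ⟨Fin n → C, Fin n → D, Fin n → I, Fin n → J, inferInstance, inferInstance,
    inferInstance, inferInstance,
    fun x a c => ∏ s, K (x s) (finFunctionFinEquiv.symm a s) (c s),
    fun x b d => ∏ s, L (x s) (finFunctionFinEquiv.symm b s) (d s),
    fun c d => ∏ s, ω (c s) (d s), symGram_pow hK _, symGram_pow hL _, ?_⟩
  intro a b a' b'
  have inner : ∀ (x : Fin n → I) (y : Fin n → J) (u : Fin n → Fin dA) (v : Fin n → Fin dB),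
      ∑ c : Fin n → C, ∑ d : Fin n → D,
        (∏ s, K (x s) (u s) (c s)) * (∏ s, L (y s) (v s) (d s)) * ∏ s, ω (c s) (d s) =
      ∏ s, ∑ c, ∑ d, K (x s) (u s) c * L (y s) (v s) d * ω c d := by
    intro x y u v
    rw [← sum_prod_pi (fun s c => ∑ d, K (x s) (u s) c * L (y s) (v s) d * ω c d)]
    refine Finset.sum_congr rfl fun c _ => ?_
    rw [← sum_prod_pi (fun s d => K (x s) (u s) (c s) * L (y s) (v s) d * ω (c s) d)]
    simp only [Finset.prod_mul_distrib]
  simp only [inner]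
  simp only [mul_apply, conjTranspose_apply, of_apply, tensorPow, star_prod,
    ← Finset.prod_mul_distrib]
  set u := finFunctionFinEquiv.symm a
  set v := finFunctionFinEquiv.symm b
  set u' := finFunctionFinEquiv.symm a'
  set v' := finFunctionFinEquiv.symm b'
  rw [sum_prod_pi (fun s e => ψ ((u s, v s), e) * star (ψ ((u' s, v' s), e)))]
  have e1 : ∀ s, ∑ e, ψ ((u s, v s), e) * star (ψ ((u' s, v' s), e)) =
      ∑ i, ∑ j, (∑ c, ∑ d, K i (u s) c * L j (v s) d * ω c d) *
        star (∑ c, ∑ d, K i (u' s) c * L j (v' s) d * ω c d) := by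
    intro s
    rw [← hψ, hρ]
  simp only [e1]
  rw [← sum_prod_pi (fun s i => ∑ j, (∑ c, ∑ d, K i (u s) c * L j (v s) d * ω c d) *
        star (∑ c, ∑ d, K i (u' s) c * L j (v' s) d * ω c d))]
  refine Finset.sum_congr rfl fun x _ => ?_
  rw [← sum_prod_pi (fun s j => (∑ c, ∑ d, K (x s) (u s) c * L j (v s) d * ω c d) *
        star (∑ c, ∑ d, K (x s) (u' s) c * L j (v' s) d * ω c d))]

end Vale.Agent.P372
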