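import Vale.Agent.P372.Guess

/-! Every protocol acts, for a fixed transcript, through product effects. -/

namespace Vale.Agent.P372

open Matrix
open scoped Kronecker ComplexOrder MatrixOrder

variable {E : Type} [Fintype E] [DecidableEq E]

/-- The slice of `Ω` at Eve's indices. -/
def slice {X : Type} (Ω : Matrix (X × E) (X × E) ℂ) (e e' : E) : Matrix X X ℂ :=
  Matrix.of fun y x => Ω (y, e) (x, e')

lemma slice_conj {X Y : Type} [Fintype X] (V : Matrix Y X ℂ) (Ω : Matrix (X × E) (X × E) ℂ)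
    (e e' : E) :
    slice ((V ⊗ₖ (1 : Matrix E E ℂ)) * Ω * (V ⊗ₖ (1 : Matrix E E ℂ))ᴴ) e e' =
      V * slice Ω e e' * Vᴴ := by
  ext y x
  simp [slice, mul_apply, Fintype.sum_prod_type, one_apply, conjTranspose_apply, apply_ite star]

omit [Fintype E] [DecidableEq E] in
lemma slice_sum {X I : Type} (s : Finset I) (Ω : I → Matrix (X × E) (X × E) ℂ) (e e' : E) :
    slice (∑ i ∈ s, Ω i) e e' = ∑ i ∈ s, slice (Ω i) e e' := by
  ext y x
  simp [slice, Matrix.sum_apply]

lemma trace_slice_step {X Y I : Type} [Fintype X] [Fintype Y] [Fintype I] (V : I → Matrix Y X ℂ)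
    (O : Matrix Y Y ℂ) (Ω : Matrix (X × E) (X × E) ℂ) (e e' : E) :
    (O * slice (∑ i, (V i ⊗ₖ (1 : Matrix E E ℂ)) * Ω * (V i ⊗ₖ (1 : Matrix E E ℂ))ᴴ) e e').trace =
      (heis V O * slice Ω e e').trace := by
  rw [slice_sum, heis, Matrix.mul_sum, Matrix.sum_mul, trace_sum, trace_sum]
  refine Finset.sum_congr rfl fun i _ => ?_
  rw [slice_conj, ← Matrix.mul_assoc, trace_mul_comm]
  simp only [Matrix.mul_assoc]

lemma heis_left {A A' B I : Type} [Fintype A] [Fintype B] [DecidableEq B] [Fintype I]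
    (K : I → Matrix A A' ℂ) (P : Matrix A A ℂ) (Q : Matrix B B ℂ) :
    heis (fun i => K i ⊗ₖ (1 : Matrix B B ℂ)) (P ⊗ₖ Q) = heis K P ⊗ₖ Q := by
  simp only [heis, conjTranspose_kronecker, ← mul_kronecker_mul, conjTranspose_one,
    Matrix.one_mul, Matrix.mul_one]
  ext ⟨c, d⟩ ⟨c', d'⟩
  simp only [Matrix.sum_apply, kroneckerMap_apply, Finset.sum_mul]

lemma heis_right {A B B' I : Type} [Fintype A] [DecidableEq A] [Fintype B] [Fintype I]
    (K : I → Matrix B B' ℂ) (P : Matrix A A ℂ) (Q : Matrix B B ℂ) :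
    heis (fun i => (1 : Matrix A A ℂ) ⊗ₖ K i) (P ⊗ₖ Q) = P ⊗ₖ heis K Q := by
  simp only [heis, conjTranspose_kronecker, ← mul_kronecker_mul, conjTranspose_one,
    Matrix.one_mul, Matrix.mul_one]
  ext ⟨c, d⟩ ⟨c', d'⟩
  simp only [Matrix.sum_apply, kroneckerMap_apply, Finset.mul_sum]

theorem product_effects {ℓ m r a b : ℕ} (π : Protocol ℓ m r a b) :
    ∃ (P : (Fin r → Fin m) → Key ℓ → Matrix (Fin a) (Fin a) ℂ)
      (Q : (Fin r → Fin m) → Key ℓ → Matrix (Fin b) (Fin b) ℂ),
      (∀ t k, (P t k).PosSemidef) ∧ (∀ t k, (Q t k).PosSemidef) ∧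
      ∀ (Ω : Op a b E) t k k' e e',
        π.eve Ω t k k' e e' = ((P t k ⊗ₖ Q t k') * slice Ω e e').trace := by
  induction π with
  | done MA MB hA hA1 hB hB1 =>
    refine ⟨fun _ => MA, fun _ => MB, fun _ => hA, fun _ => hB, ?_⟩
    intro Ω t k k' e e'
    simp [Protocol.eve, measureAB, slice, trace, mul_apply, Fintype.sum_prod_type, one_apply]
  | alice s a' K hK next ih =>
    choose P Q hP hQ h using ih
    refine ⟨fun t k => heis (K (t 0)) (P (t 0) (Fin.tail t) k), fun t k => Q (t 0) (Fin.tail t) k,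
      fun t k => heis_psd _ (hP _ _ _), fun t k => hQ _ _ _, ?_⟩
    intro Ω t k k' e e'
    refine (h (t 0) _ (Fin.tail t) k k' e e').trans ?_
    rw [applyKraus, trace_slice_step, heis_left]
  | bob s b' K hK next ih =>
    choose P Q hP hQ h using ih
    refine ⟨fun t k => P (t 0) (Fin.tail t) k, fun t k => heis (K (t 0)) (Q (t 0) (Fin.tail t) k),
      fun t k => hP _ _ _, fun t k => heis_psd _ (hQ _ _ _), ?_⟩
    intro Ω t k k' e e'
    refine (h (t 0) _ (Fin.tail t) k k' e e').trans ?_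
    rw [applyKraus, trace_slice_step, heis_right]

omit [Fintype E] [DecidableEq E] in
lemma trace_slice_pure {X : Type} [Fintype X] (φ : X × E → ℂ) (O : Matrix X X ℂ) (e e' : E) :
    (O * slice (vecMulVec φ (star φ)) e e').trace =
      ((Matrix.of fun x e => φ (x, e))ᴴ * O * (Matrix.of fun x e => φ (x, e)))ᵀ e e' := by
  simp only [trace, diag_apply, mul_apply, slice, of_apply, vecMulVec_apply, Pi.star_apply,
    transpose_apply, conjTranspose_apply, Finset.sum_mul]
  rw [Finset.sum_comm]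
  refine Finset.sum_congr rfl fun x _ => Finset.sum_congr rfl fun y _ => ?_
  ring

end Vale.Agent.P372
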