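import Vale.Agent.P372.Defs

/-! Spectral lemmas: Jordan decomposition, trace inequalities, the trace norm. -/

namespace Vale.Agent.P372

open Matrix
open scoped Kronecker ComplexOrder MatrixOrder

variable {X : Type} [Fintype X] [DecidableEq X]

omit [DecidableEq X] in
lemma trace_mul_nonneg {A B : Matrix X X ℂ} (hA : A.PosSemidef) (hB : B.PosSemidef) :
    0 ≤ (A * B).trace.re := by
  classical
  obtain ⟨a, rfl⟩ := CStarAlgebra.nonneg_iff_eq_star_mul_self.mp hA.nonneg
  have h := (hB.mul_mul_conjTranspose_same a).trace_nonneg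
  have e : (star a * a * B).trace = (a * B * aᴴ).trace := by
    rw [star_eq_conjTranspose, Matrix.mul_assoc, trace_mul_comm]
  rw [e]
  exact (Complex.nonneg_iff.mp h).1

/-- Jordan decomposition with the projector onto the positive part. -/
lemma jordan {D : Matrix X X ℂ} (hD : D.IsHermitian) :
    ∃ Dp Dm P : Matrix X X ℂ, Dp.PosSemidef ∧ Dm.PosSemidef ∧ D = Dp - Dm ∧ Dp * Dm = 0 ∧
      Dm * Dp = 0 ∧ P.PosSemidef ∧ (1 - P).PosSemidef ∧ P * D = Dp := by
  set U : Matrix X X ℂ := (hD.eigenvectorUnitary : Matrix X X ℂ) with hU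
  have h1 : Uᴴ * U = 1 := by
    rw [← star_eq_conjTranspose]; exact Unitary.coe_star_mul_self _
  have h2 : U * Uᴴ = 1 := by
    rw [← star_eq_conjTranspose]; exact Unitary.coe_mul_star_self _
  have hs : D = U * diagonal (fun i => ((hD.eigenvalues i : ℝ) : ℂ)) * Uᴴ := by
    conv_lhs => rw [hD.spectral_theorem]
    rw [Unitary.conjStarAlgAut_apply, star_eq_conjTranspose]
    rfl
  set d := hD.eigenvalues
  let f : (X → ℝ) → Matrix X X ℂ := fun g => U * diagonal (fun i => ((g i : ℝ) : ℂ)) * Uᴴ
  have fpos : ∀ g : X → ℝ, (∀ i, 0 ≤ g i) → (f g).PosSemidef := by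
    intro g hg
    apply PosSemidef.mul_mul_conjTranspose_same
    apply PosSemidef.diagonal
    intro i
    simpa using hg i
  have fmul : ∀ g g' : X → ℝ, f g * f g' = f (fun i => g i * g' i) := by
    intro g g'
    simp only [f]
    calc U * diagonal (fun i => ((g i : ℝ) : ℂ)) * Uᴴ *
          (U * diagonal (fun i => ((g' i : ℝ) : ℂ)) * Uᴴ)
        = U * diagonal (fun i => ((g i : ℝ) : ℂ)) * (Uᴴ * U) *
            diagonal (fun i => ((g' i : ℝ) : ℂ)) * Uᴴ := by
          simp only [Matrix.mul_assoc]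
      _ = _ := by
          rw [h1, Matrix.mul_one, Matrix.mul_assoc U, diagonal_mul_diagonal]
          simp
  have fsub : ∀ g g' : X → ℝ, f g - f g' = f (fun i => g i - g' i) := by
    intro g g'
    simp only [f]
    rw [← Matrix.sub_mul, ← Matrix.mul_sub, diagonal_sub]
    simp
  have f0 : f (fun _ => 0) = 0 := by simp [f]
  have f1 : f (fun _ => 1) = 1 := by simp [f, h2]
  have hDf : D = f d := hs
  refine ⟨f (fun i => max (d i) 0), f (fun i => max (-d i) 0),
    f (fun i => if 0 < d i then 1 else 0), fpos _ (fun i => le_max_right _ _),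
    fpos _ (fun i => le_max_right _ _), ?_, ?_, ?_, fpos _ (fun i => by split_ifs <;> norm_num),
    ?_, ?_⟩
  · rw [fsub, hDf]
    congr 1
    funext i
    rcases le_total 0 (d i) with h | h
    · rw [max_eq_left h, max_eq_right (by linarith)]; ring
    · rw [max_eq_right h, max_eq_left (by linarith)]; ring
  · rw [fmul, ← f0]
    congr 1
    funext i
    rcases le_total 0 (d i) with h | h
    · rw [max_eq_right (show -d i ≤ 0 by linarith)]; ring
    · rw [max_eq_right h]; ring
  · rw [fmul, ← f0]
    congr 1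
    funext i
    rcases le_total 0 (d i) with h | h
    · rw [max_eq_right (show -d i ≤ 0 by linarith)]; ring
    · rw [max_eq_right h]; ring
  · rw [← f1, fsub]
    exact fpos _ (fun i => by split_ifs <;> norm_num)
  · rw [hDf, fmul]
    congr 1
    funext i
    split_ifs with h
    · rw [max_eq_left h.le]; ring
    · rw [max_eq_right (not_lt.mp h)]; ring

/-- Duality bound for the trace norm of a Hermitian matrix. -/
lemma re_trace_mul_le_traceNorm {M T : Matrix X X ℂ} (hM : M.IsHermitian)
    (h1 : (1 - T).PosSemidef) (h2 : (1 + T).PosSemidef) :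
    (T * M).trace.re ≤ traceNorm M := by
  obtain ⟨Dp, Dm, -, hp, hm, hD, hpm, hmp, -, -, -⟩ := jordan hM
  have hs : CFC.sqrt (Mᴴ * M) = Dp + Dm := by
    apply CFC.sqrt_unique _ (hp.add hm).nonneg
    rw [hM.eq, hD]
    simp only [Matrix.mul_add, Matrix.add_mul, Matrix.mul_sub, Matrix.sub_mul, hpm, hmp]
    abel
  unfold traceNorm
  rw [hs, hD]
  have a1 := trace_mul_nonneg h1 hp
  have a2 := trace_mul_nonneg h2 hm
  simp only [Matrix.sub_mul, Matrix.add_mul, Matrix.one_mul, trace_sub, trace_add,
    Complex.sub_re, Complex.add_re, Matrix.mul_sub] at a1 a2 ⊢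
  linarith

end Vale.Agent.P372
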