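import Vale.Agent.P372.Proto
import Vale.Agent.P372.Pow

/-! A `Good` state yields no secret bit with error below `1/2`. -/

namespace Vale.Agent.P372

open Matrix Filter Topology
open scoped Kronecker ComplexOrder MatrixOrder

section
variable {Z T E : Type} [Fintype Z] [DecidableEq Z] [Fintype T] [DecidableEq T] [Fintype E]
  [DecidableEq E]

/-- Block diagonal matrices. -/
def blk (B : Z → T → Matrix E E ℂ) : Matrix (Z × (T × E)) (Z × (T × E)) ℂ :=
  Matrix.of fun u v => if u.1 = v.1 ∧ u.2.1 = v.2.1 then B u.1 u.2.1 u.2.2 v.2.2 else 0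

omit [Fintype E] [DecidableEq E] in
lemma blk_eq (B : Z → T → Matrix E E ℂ) :
    blk B = ∑ z, ∑ t, (diagonal (Pi.single z (1 : ℂ))) ⊗ₖ
      ((diagonal (Pi.single t (1 : ℂ))) ⊗ₖ B z t) := by
  ext ⟨z, t, e⟩ ⟨z', t', e'⟩
  simp only [blk, of_apply, Matrix.sum_apply, kroneckerMap_apply, diagonal_apply, Pi.single_apply]
  by_cases h1 : z = z' <;> by_cases h2 : t = t' <;> simp [h1, h2]

omit [DecidableEq E] in
lemma blk_psd {B : Z → T → Matrix E E ℂ} (h : ∀ z t, (B z t).PosSemidef) :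
    (blk B).PosSemidef := by
  rw [blk_eq]
  refine posSemidef_sum _ fun z _ => posSemidef_sum _ fun t _ => ?_
  refine (PosSemidef.diagonal ?_).kronecker ((PosSemidef.diagonal ?_).kronecker (h z t))
  · intro i; simp only [Pi.single_apply, Pi.zero_apply]; split_ifs <;> norm_num
  · intro i; simp only [Pi.single_apply, Pi.zero_apply]; split_ifs <;> norm_num

omit [Fintype Z] [Fintype T] [Fintype E] in
lemma one_sub_blk (B : Z → T → Matrix E E ℂ) : 1 - blk B = blk (fun z t => 1 - B z t) := by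
  ext ⟨z, t, e⟩ ⟨z', t', e'⟩
  simp only [blk, of_apply, Matrix.sub_apply, one_apply, Prod.mk.injEq]
  by_cases h1 : z = z' <;> by_cases h2 : t = t' <;> simp [h1, h2]

omit [Fintype Z] [Fintype T] [Fintype E] in
lemma one_add_blk (B : Z → T → Matrix E E ℂ) : 1 + blk B = blk (fun z t => 1 + B z t) := by
  ext ⟨z, t, e⟩ ⟨z', t', e'⟩
  simp only [blk, of_apply, Matrix.add_apply, one_apply, Prod.mk.injEq]
  by_cases h1 : z = z' <;> by_cases h2 : t = t' <;> simp [h1, h2]

omit [DecidableEq E] in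
lemma trace_blk_mul (B : Z → T → Matrix E E ℂ) (M : Matrix (Z × (T × E)) (Z × (T × E)) ℂ) :
    (blk B * M).trace =
      ∑ z, ∑ t, (B z t * Matrix.of fun e e' => M (z, t, e) (z, t, e')).trace := by
  simp only [trace, diag_apply, mul_apply, blk, of_apply, Fintype.sum_prod_type]
  refine Finset.sum_congr rfl fun z _ => Finset.sum_congr rfl fun t _ =>
    Finset.sum_congr rfl fun e _ => ?_
  rw [Finset.sum_eq_single z, Finset.sum_eq_single t]
  · simp
  · intro t' _ h; simp [h.symm]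
  · simp
  · intro z' _ h; simp [h.symm]
  · simp

end

/-- Splitting a sum over pairs of keys according to the first bits. -/
lemma sum_bits {ℓ : ℕ} {M : Type} [AddCommMonoid M] (i : Fin ℓ) (f : Key ℓ → M) :
    ∑ k, f k = ∑ k ∈ Finset.univ.filter (fun k : Key ℓ => k i = false), f k +
      ∑ k ∈ Finset.univ.filter (fun k : Key ℓ => k i = true), f k := by
  rw [← Finset.sum_filter_add_sum_filter_not Finset.univ (fun k : Key ℓ => k i = false)]
  simp

lemma sum_key_bit {ℓ : ℕ} (i : Fin ℓ) (g : Bool → ℂ) :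
    2 * ∑ k : Key ℓ, g (k i) = 2 ^ ℓ * (g false + g true) := by
  let σ : Key ℓ ≃ Key ℓ := Function.Involutive.toPerm
    (fun k => Function.update k i (!k i)) (by intro k; simp)
  have h : ∑ k : Key ℓ, g (k i) = ∑ k : Key ℓ, g (!k i) := by
    rw [← Equiv.sum_comp σ]
    refine Finset.sum_congr rfl fun k _ => ?_
    have : σ k i = !k i := by
      show Function.update k i (!k i) i = !k i
      simp
    rw [this]
  have h2 : ∀ k : Key ℓ, g (k i) + g (!k i) = g false + g true := by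
    intro k
    cases k i <;> simp [add_comm]
  rw [two_mul]
  nth_rewrite 2 [h]
  rw [← Finset.sum_add_distrib]
  simp [h2, mul_add]

lemma conj_sum_kron {A B E : Type} [Fintype A] [Fintype B] {ι : Type} (s s' : Finset ι)
    (Ψ : Matrix (A × B) E ℂ) (P : ι → Matrix A A ℂ) (Q : ι → Matrix B B ℂ) :
    Ψᴴ * ((∑ k ∈ s, P k) ⊗ₖ (∑ k ∈ s', Q k)) * Ψ =
      ∑ k ∈ s, ∑ k' ∈ s', Ψᴴ * (P k ⊗ₖ Q k') * Ψ := by
  have : (∑ k ∈ s, P k) ⊗ₖ (∑ k ∈ s', Q k) = ∑ k ∈ s, ∑ k' ∈ s', P k ⊗ₖ Q k' := by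
    ext ⟨a, b⟩ ⟨a', b'⟩
    simp only [kroneckerMap_apply, Matrix.sum_apply, Finset.sum_mul_sum]
  rw [this]
  simp only [Matrix.mul_sum, Matrix.sum_mul]

theorem half_le_error {ℓ m r a b : ℕ} {E : Type} [Fintype E] [DecidableEq E] (hℓ : 1 ≤ ℓ)
    (π : Protocol ℓ m r a b) (φ : (Fin a × Fin b) × E → ℂ)
    (hφ : Good ((Matrix.of fun x e => φ (x, e)) * (Matrix.of fun x e => φ (x, e))ᴴ))
    {ε : ℝ} (h : HasError π φ ε) : 1 / 2 ≤ ε := by
  obtain ⟨σ, ⟨hσ, hσ1⟩, hε⟩ := h
  refine le_trans ?_ hε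
  obtain ⟨P, Q, hP, hQ, heve⟩ := product_effects (E := E) π
  set Ψ : Matrix (Fin a × Fin b) E ℂ := Matrix.of fun x e => φ (x, e) with hΨ
  let i : Fin ℓ := ⟨0, hℓ⟩
  let S : Bool → Finset (Key ℓ) := fun c => Finset.univ.filter (fun k : Key ℓ => k i = c)
  have hev : ∀ t k k', π.eve (vecMulVec φ (star φ)) t k k' = (Ψᴴ * (P t k ⊗ₖ Q t k') * Ψ)ᵀ := by
    intro t k k'
    ext e e'
    rw [heve, trace_slice_pure]
  have hG := fun t : (Fin r → Fin m) => guess hφ Ψ rfl
    (posSemidef_sum (S false) fun k _ => hP t k) (posSemidef_sum (S true) fun k _ => hP t k)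
    (posSemidef_sum (S false) fun k _ => hQ t k) (posSemidef_sum (S true) fun k _ => hQ t k)
  choose G hG0 hG1 hG using hG
  let F : Bool → Bool → (Fin r → Fin m) → Matrix E E ℂ := fun c c' t =>
    match c, c' with
    | false, false => 1 - G t
    | true, true => G t
    | _, _ => (-1 / 2 : ℂ) • 1
  let B : Key ℓ × Key ℓ → (Fin r → Fin m) → Matrix E E ℂ := fun z t => -(F (z.1 i) (z.2 i) t)ᵀ
  have h12 : (0 : ℂ) ≤ 1 / 2 := by norm_num [Complex.nonneg_iff]
  have h32 : (0 : ℂ) ≤ 3 / 2 := by norm_num [Complex.nonneg_iff]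
  have hF1 : ∀ c c' t, (1 - F c c' t).PosSemidef := by
    intro c c' t
    cases c <;> cases c' <;> simp only [F]
    · exact psd_of_eq (hG0 t) (by abel)
    · exact psd_of_eq (PosSemidef.one.smul h32) (by module)
    · exact psd_of_eq (PosSemidef.one.smul h32) (by module)
    · exact hG1 t
  have hF2 : ∀ c c' t, (1 + F c c' t).PosSemidef := by
    intro c c' t
    cases c <;> cases c' <;> simp only [F]
    · exact PosSemidef.one.add (hG1 t)
    · exact psd_of_eq (PosSemidef.one.smul h12) (by module)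
    · exact psd_of_eq (PosSemidef.one.smul h12) (by module)
    · exact PosSemidef.one.add (hG0 t)
  have hfin : π.final (vecMulVec φ (star φ)) =
      blk (fun z t => π.eve (vecMulVec φ (star φ)) t z.1 z.2) := rfl
  have hτ : (π.final (vecMulVec φ (star φ))).PosSemidef := by
    rw [hfin]
    refine blk_psd fun z t => ?_
    rw [hev]
    exact (((hP t _).kronecker (hQ t _)).conjTranspose_mul_mul_same Ψ).transpose
  have hid : (idealKey ℓ ⊗ₖ σ).PosSemidef := by
    refine (PosSemidef.diagonal ?_).kronecker hσ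
    intro z
    simp only [Pi.zero_apply]
    split_ifs
    · positivity
    · exact le_rfl
  have b1 : (1 - blk B).PosSemidef := by
    rw [one_sub_blk]
    refine blk_psd fun z t => psd_of_eq (hF2 (z.1 i) (z.2 i) t).transpose ?_
    simp [B]
  have b2 : (1 + blk B).PosSemidef := by
    rw [one_add_blk]
    refine blk_psd fun z t => psd_of_eq (hF1 (z.1 i) (z.2 i) t).transpose ?_
    simp [B, sub_eq_add_neg]
  refine le_trans ?_ (re_trace_mul_le_traceNorm (hτ.1.sub hid.1) b1 b2)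
  rw [Matrix.mul_sub, trace_sub, Complex.sub_re]
  have t1 : 0 ≤ (blk B * π.final (vecMulVec φ (star φ))).trace.re := by
    rw [trace_blk_mul, Finset.sum_comm, Complex.re_sum]
    refine Finset.sum_nonneg fun t _ => ?_
    have e1 : ∀ z : Key ℓ × Key ℓ, (B z t * Matrix.of fun e e' =>
        π.final (vecMulVec φ (star φ)) (z, t, e) (z, t, e')).trace =
        -(F (z.1 i) (z.2 i) t * (Ψᴴ * (P t z.1 ⊗ₖ Q t z.2) * Ψ)).trace := by
      intro z
      have : (Matrix.of fun e e' => π.final (vecMulVec φ (star φ)) (z, t, e) (z, t, e')) =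
          (Ψᴴ * (P t z.1 ⊗ₖ Q t z.2) * Ψ)ᵀ := by
        rw [← hev]
        ext e e'
        simp [Protocol.final]
      rw [this]
      simp only [B]
      rw [Matrix.neg_mul, trace_neg, ← transpose_mul, trace_transpose, trace_mul_comm]
    have e2 : ∀ c c', ∑ k ∈ S c, ∑ k' ∈ S c',
        (F (k i) (k' i) t * (Ψᴴ * (P t k ⊗ₖ Q t k') * Ψ)).trace =
        (F c c' t * (Ψᴴ * ((∑ k ∈ S c, P t k) ⊗ₖ (∑ k ∈ S c', Q t k)) * Ψ)).trace := by
      intro c c'
      rw [conj_sum_kron, Matrix.mul_sum, trace_sum]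
      refine Finset.sum_congr rfl fun k hk => ?_
      rw [Matrix.mul_sum, trace_sum]
      refine Finset.sum_congr rfl fun k' hk' => ?_
      rw [(Finset.mem_filter.mp hk).2, (Finset.mem_filter.mp hk').2]
    simp only [e1]
    rw [Finset.sum_neg_distrib, Fintype.sum_prod_type, sum_bits i]
    simp only [sum_bits i (fun k' => (F (_ : Bool) (k' i) t *
      (Ψᴴ * (P t _ ⊗ₖ Q t k') * Ψ)).trace), Finset.sum_add_distrib]
    have := hG t
    have f1 := e2 false false
    have f2 := e2 false true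
    have f3 := e2 true false
    have f4 := e2 true true
    simp only [S] at f1 f2 f3 f4 this
    rw [f1, f2, f3, f4]
    simp only [F, Matrix.smul_mul, Matrix.one_mul, trace_smul, smul_eq_mul, Complex.neg_re,
      Complex.add_re, Complex.mul_re]
    norm_num
    linarith
  have t2 : (blk B * (idealKey ℓ ⊗ₖ σ)).trace = -(1 / 2) := by
    rw [trace_blk_mul]
    let σt : (Fin r → Fin m) → Matrix E E ℂ := fun t => Matrix.of fun e e' => σ (t, e) (t, e')
    have e1 : ∀ (z : Key ℓ × Key ℓ) t, (B z t * Matrix.of fun e e' =>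
        (idealKey ℓ ⊗ₖ σ) (z, t, e) (z, t, e')).trace =
        if z.1 = z.2 then -(((2 : ℂ) ^ ℓ)⁻¹ * ((F (z.1 i) (z.1 i) t)ᵀ * σt t).trace) else 0 := by
      intro z t
      have : (Matrix.of fun e e' => (idealKey ℓ ⊗ₖ σ) (z, t, e) (z, t, e')) =
          (if z.1 = z.2 then ((2 : ℂ) ^ ℓ)⁻¹ else 0) • σt t := by
        ext e e'
        simp [idealKey, σt]
      rw [this]
      split_ifs with hz
      · simp [B, hz]
      · simp
    simp only [e1]
    rw [Fintype.sum_prod_type]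
    simp only [Finset.sum_ite_irrel, Finset.sum_const_zero, Finset.sum_ite_eq, Finset.mem_univ,
      if_true]
    have e3 := sum_key_bit i (fun c => ∑ t, -(((2 : ℂ) ^ ℓ)⁻¹ * ((F c c t)ᵀ * σt t).trace))
    have e4 : ∑ t, -(((2 : ℂ) ^ ℓ)⁻¹ * ((F false false t)ᵀ * σt t).trace) +
        ∑ t, -(((2 : ℂ) ^ ℓ)⁻¹ * ((F true true t)ᵀ * σt t).trace) = -((2 : ℂ) ^ ℓ)⁻¹ := by
      rw [← Finset.sum_add_distrib]
      have : ∀ t, -(((2 : ℂ) ^ ℓ)⁻¹ * ((F false false t)ᵀ * σt t).trace) +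
          -(((2 : ℂ) ^ ℓ)⁻¹ * ((F true true t)ᵀ * σt t).trace) =
          -((2 : ℂ) ^ ℓ)⁻¹ * (σt t).trace := by
        intro t
        simp only [F, transpose_sub, transpose_one, Matrix.sub_mul, Matrix.one_mul, trace_sub]
        ring
      simp only [this]
      rw [← Finset.mul_sum]
      have : ∑ t, (σt t).trace = 1 := by
        rw [← hσ1]
        simp [σt, trace, Fintype.sum_prod_type]
      rw [this, mul_one]
    rw [e4] at e3
    have h2 : (2 : ℂ) ^ ℓ ≠ 0 := pow_ne_zero _ two_ne_zero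
    rw [mul_neg, mul_inv_cancel₀ h2] at e3
    linear_combination e3 / 2
  rw [t2]
  norm_num
  linarith

theorem keyRate_eq_zero {dA dB : ℕ} {E : Type} [Fintype E] [DecidableEq E]
    {ρ : Matrix (Fin dA × Fin dB) (Fin dA × Fin dB) ℂ} (hρ : Good ρ)
    {ψ : (Fin dA × Fin dB) × E → ℂ} (hψ : IsPurification ψ ρ) : keyRate ψ = 0 := by
  unfold keyRate
  rw [← le_zero_iff]
  refine sSup_le ?_
  rintro R ⟨ℓ, m, r, π, ε, hε, herr, rfl⟩
  have ev : ∀ᶠ n in atTop, ε n < 1 / 2 := hε.eventually (gt_mem_nhds (by norm_num))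
  have ev2 : ∀ᶠ n : ℕ in atTop, (ℓ n : ENNReal) / (n : ENNReal) = 0 := by
    filter_upwards [ev] with n hn
    have : ℓ n = 0 := by
      by_contra h0
      have := half_le_error (Nat.one_le_iff_ne_zero.mpr h0) (π n) _ (good_pow hρ hψ n) (herr n)
      linarith
    simp [this]
  rw [liminf_congr ev2]
  simp

theorem exists_purification {X : Type} [Fintype X] [DecidableEq X] {ρ : Matrix X X ℂ}
    (hρ : ρ.PosSemidef) : ∃ ψ : X × X → ℂ, IsPurification ψ ρ := by
  obtain ⟨a, rfl⟩ := CStarAlgebra.nonneg_iff_eq_star_mul_self.mp hρ.nonneg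
  refine ⟨fun u => star (a u.2 u.1), fun x y => ?_⟩
  simp [mul_apply, star_apply]

end Vale.Agent.P372
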